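import Vale.Agent.Lib.P333.Defs

/-!
Basic facts on overlaps, chains and merges (P333).
-/

namespace Vale.Agent.Lib.P333

open Finset

variable {α : Type*} [DecidableEq α] {ι : Type*}

lemma ov_spec (x y : List α) : x.drop (x.length - ov x y) = y.take (ov x y) := by
  unfold ov
  exact Nat.findGreatest_spec (P := fun l => x.drop (x.length - l) = y.take l) (m := 0)
    (Nat.zero_le _) (by simp)

lemma ov_le (x y : List α) : ov x y ≤ min x.length y.length - 1 := by
  unfold ov
  exact Nat.findGreatest_le _

lemma ov_lt_left {x : List α} (y : List α) (hx : x ≠ []) (hy : y ≠ []) : ov x y < x.length := by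
  have h := ov_le x y
  have h1 : 0 < x.length := List.length_pos_of_ne_nil hx
  have h2 : 0 < y.length := List.length_pos_of_ne_nil hy
  have := min_le_left x.length y.length
  have : 0 < min x.length y.length := lt_min h1 h2
  omega

lemma ov_lt_right (x : List α) {y : List α} (hx : x ≠ []) (hy : y ≠ []) : ov x y < y.length := by
  have h := ov_le x y
  have h1 : 0 < x.length := List.length_pos_of_ne_nil hx
  have h2 : 0 < y.length := List.length_pos_of_ne_nil hy
  have := min_le_right x.length y.length
  have : 0 < min x.length y.length := lt_min h1 h2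
  omega

lemma le_ov {x y : List α} {l : ℕ} (h1 : l < x.length) (h2 : l < y.length)
    (h : x.drop (x.length - l) = y.take l) : l ≤ ov x y := by
  unfold ov
  exact Nat.le_findGreatest (by have := lt_min h1 h2; omega) h

lemma arcCost_add_ov {x y : List α} (hx : x ≠ []) (hy : y ≠ []) :
    arcCost x y + ov x y = x.length := by
  unfold arcCost
  have := ov_lt_left y hx hy
  omega

lemma arcCost_pos {x y : List α} (hx : x ≠ []) (hy : y ≠ []) : 0 < arcCost x y := by
  unfold arcCost
  have := ov_lt_left y hx hy
  omega

omit [DecidableEq α] in
lemma merge_aux (x y : List α) (m : ℕ) (h : x.drop (x.length - m) = y.take m) :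
    x ++ y.drop m = x.take (x.length - m) ++ y := by
  calc x ++ y.drop m = (x.take (x.length - m) ++ x.drop (x.length - m)) ++ y.drop m := by
        rw [List.take_append_drop]
    _ = x.take (x.length - m) ++ (y.take m ++ y.drop m) := by rw [h, List.append_assoc]
    _ = x.take (x.length - m) ++ y := by rw [List.take_append_drop]

/-- Merging `x` and `y` along their overlap has `y` as a suffix. -/
lemma merge_eq (x y : List α) : x ++ y.drop (ov x y) = x.take (x.length - ov x y) ++ y :=
  merge_aux x y _ (ov_spec x y)

section chain

variable (s : ι → List α) (σ : Equiv.Perm ι) (h : ι)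

lemma chainFrom_succ (n : ℕ) : chainFrom s σ h (n + 1) =
    chainFrom s σ h n ++ (s (σ^[n + 1] h)).drop (ov (s (σ^[n] h)) (s (σ^[n + 1] h))) := rfl

lemma chainFrom_suffix (n : ℕ) : s (σ^[n] h) <:+ chainFrom s σ h n := by
  induction n with
  | zero => simp [chainFrom]
  | succ n ih =>
    obtain ⟨A, hA⟩ := ih
    rw [chainFrom_succ, ← hA, List.append_assoc]
    rw [merge_eq]
    exact ⟨A ++ (s (σ^[n] h)).take ((s (σ^[n] h)).length - ov (s (σ^[n] h)) (s (σ^[n + 1] h))),
      by simp⟩

lemma chainFrom_prefix_succ (n : ℕ) : chainFrom s σ h n <+: chainFrom s σ h (n + 1) := by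
  rw [chainFrom_succ]; exact List.prefix_append _ _

lemma chainFrom_prefix {m n : ℕ} (hmn : m ≤ n) : chainFrom s σ h m <+: chainFrom s σ h n := by
  induction n, hmn using Nat.le_induction with
  | base => exact List.prefix_refl _
  | succ n _ ih => exact ih.trans (chainFrom_prefix_succ s σ h n)

lemma head_prefix_chainFrom (n : ℕ) : s h <+: chainFrom s σ h n := by
  have := chainFrom_prefix s σ h (Nat.zero_le n)
  simpa [chainFrom] using this

lemma infix_chainFrom {j n : ℕ} (hj : j ≤ n) :
    s (σ^[j] h) <:+: chainFrom s σ h n :=
  (chainFrom_suffix s σ h j).isInfix.trans (chainFrom_prefix s σ h hj).isInfix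

/-- Partial cost of the walk from `h`: sum of arc costs of the first `n` arcs. -/
def walkCost (n : ℕ) : ℕ :=
  ∑ j ∈ Finset.range n, arcCost (s (σ^[j] h)) (s (σ^[j + 1] h))

lemma chainFrom_length (hne : ∀ i, s i ≠ []) (n : ℕ) :
    (chainFrom s σ h n).length = walkCost s σ h n + (s (σ^[n] h)).length := by
  induction n with
  | zero => simp [chainFrom, walkCost]
  | succ n ih =>
    rw [chainFrom_succ, List.length_append, ih, List.length_drop]
    unfold walkCost
    rw [Finset.sum_range_succ]
    have h1 := ov_lt_left (s (σ^[n + 1] h)) (hne (σ^[n] h)) (hne _)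
    have h2 := ov_lt_right (s (σ^[n] h)) (hne (σ^[n] h)) (hne (σ^[n + 1] h))
    have h3 := arcCost_add_ov (hne (σ^[n] h)) (hne (σ^[n + 1] h))
    omega

end chain

section merge

lemma mergeAll_cons_cons (x y : List α) (l : List (List α)) :
    mergeAll (x :: y :: l) = x ++ (mergeAll (y :: l)).drop (ov x y) := rfl

lemma ovSum_cons_cons (x y : List α) (l : List (List α)) :
    ovSum (x :: y :: l) = ov x y + ovSum (y :: l) := rfl

lemma prefix_mergeAll (x : List α) (l : List (List α)) : x <+: mergeAll (x :: l) := by
  cases l with
  | nil => simp [mergeAll]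
  | cons y l => rw [mergeAll_cons_cons]; exact List.prefix_append _ _

lemma mergeAll_length_add (l : List (List α)) (hne : ∀ x ∈ l, x ≠ []) :
    (mergeAll l).length + ovSum l = (l.map List.length).sum := by
  induction l with
  | nil => simp [mergeAll, ovSum]
  | cons x l ih =>
    cases l with
    | nil => simp [mergeAll, ovSum]
    | cons y l =>
      have ih' := ih (fun z hz => hne z (List.mem_cons_of_mem _ hz))
      have hx := hne x (by simp)
      have hy := hne y (by simp)
      have h1 := ov_lt_right x hx hy
      have h2 : y.length ≤ (mergeAll (y :: l)).length := (prefix_mergeAll y l).length_le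
      rw [mergeAll_cons_cons, ovSum_cons_cons, List.length_append, List.length_drop]
      simp only [List.map_cons, List.sum_cons] at ih' ⊢
      omega

/-- Every string of the list is a factor of the merge, which moreover has the later part as a
suffix. -/
lemma mem_infix_mergeAll (l : List (List α)) (hne : ∀ x ∈ l, x ≠ []) :
    ∀ x ∈ l, x <:+: mergeAll l := by
  induction l with
  | nil => simp
  | cons x l ih =>
    intro z hz
    cases l with
    | nil =>
      have : z = x := by simpa using hz
      subst this
      simp [mergeAll]
    | cons y l =>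
      have ih' := ih (fun z hz => hne z (List.mem_cons_of_mem _ hz))
      have hx := hne x (by simp)
      have hy := hne y (by simp)
      set M := mergeAll (y :: l) with hM
      have hle : ov x y ≤ x.length := (ov_lt_left y hx hy).le
      have hpre : y <+: M := prefix_mergeAll y l
      have hov : ov x y ≤ y.length := (ov_lt_right x hx hy).le
      have htake : M.take (ov x y) = y.take (ov x y) := by
        obtain ⟨B, hB⟩ := hpre
        rw [← hB, List.take_append_of_le_length hov]
      have hsuf : M <:+ mergeAll (x :: y :: l) := by
        rw [mergeAll_cons_cons, ← hM]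
        refine ⟨x.take (x.length - ov x y), ?_⟩
        rw [merge_aux x M (ov x y) (by rw [htake, ov_spec x y])]
      rcases List.mem_cons.mp hz with rfl | hz'
      · exact (prefix_mergeAll z (y :: l)).isInfix
      · exact (ih' z hz').trans hsuf.isInfix

end merge

end Vale.Agent.Lib.P333
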