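import Vale.Agent.Lib.P333.Order

/-!
Cycle structure of a permutation: partition of the cover cost, length and end of the opened chains
(P333).
-/

namespace Vale.Agent.Lib.P333

open Finset

variable {α : Type*} [DecidableEq α] {ι : Type*}

omit [DecidableEq α] in
lemma minimalPeriod_pos [Finite ι] (σ : Equiv.Perm ι) (h : ι) : 0 < Function.minimalPeriod σ h := by
  apply Function.minimalPeriod_pos_of_mem_periodicPts
  refine ⟨orderOf σ, orderOf_pos σ, ?_⟩
  unfold Function.IsPeriodicPt Function.IsFixedPt
  rw [Equiv.Perm.iterate_eq_pow, pow_orderOf_eq_one]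
  rfl

omit [DecidableEq α] in
lemma iterate_pred_minimalPeriod [Finite ι] (σ : Equiv.Perm ι) (h : ι) :
    σ^[Function.minimalPeriod σ h - 1] h = σ.symm h := by
  have hpos := minimalPeriod_pos σ h
  have h1 : σ (σ^[Function.minimalPeriod σ h - 1] h) = h := by
    rw [← Function.iterate_succ_apply' σ, show (Function.minimalPeriod σ h - 1).succ
      = Function.minimalPeriod σ h by omega]
    exact Function.iterate_minimalPeriod
  exact (Equiv.eq_symm_apply σ).mpr h1

omit [DecidableEq α] in
lemma iterate_minimalPeriod' (σ : Equiv.Perm ι) (h : ι) :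
    σ^[Function.minimalPeriod σ h] h = h := Function.iterate_minimalPeriod

omit [DecidableEq α] in
lemma sameCycle_iterate (σ : Equiv.Perm ι) (h : ι) (j : ℕ) : σ.SameCycle h (σ^[j] h) :=
  ⟨j, by rw [Equiv.Perm.iterate_eq_pow]; simp⟩

/-- The cost of the cycle through `h`. -/
noncomputable def cycleCost (s : ι → List α) (σ : Equiv.Perm ι) (h : ι) : ℕ :=
  walkCost s σ h (Function.minimalPeriod σ h)

/-- The overlap of the arc entering `h`. -/
def closeOv (s : ι → List α) (σ : Equiv.Perm ι) (h : ι) : ℕ := ov (s (σ.symm h)) (s h)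

/-- The cover cost splits over cycles. -/
lemma coverCost_eq_sum [Fintype ι] (s : ι → List α) (σ : Equiv.Perm ι) (H : Finset ι)
    (hH : ∀ i, ∃! h, h ∈ H ∧ σ.SameCycle h i) :
    coverCost s σ = ∑ h ∈ H, cycleCost s σ h := by
  classical
  unfold coverCost cycleCost walkCost
  rw [Finset.sum_sigma']
  symm
  refine Finset.sum_bij (fun x _ => σ^[x.2] x.1) ?_ ?_ ?_ ?_
  · intro x _; exact Finset.mem_univ _
  · rintro ⟨h, j⟩ hx ⟨h', j'⟩ hx' heq
    simp only [Finset.mem_sigma, Finset.mem_range] at hx hx'
    simp only at heq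
    have h1 : σ.SameCycle h (σ^[j] h) := sameCycle_iterate σ h j
    have h2 : σ.SameCycle h' (σ^[j] h) := by rw [heq]; exact sameCycle_iterate σ h' j'
    obtain ⟨h0, -, huniq⟩ := hH (σ^[j] h)
    have e1 := huniq h ⟨hx.1, h1⟩
    have e2 := huniq h' ⟨hx'.1, h2⟩
    have hh : h = h' := e1.trans e2.symm
    subst hh
    have hj : j = j' := Function.iterate_injOn_Iio_minimalPeriod
      (Set.mem_Iio.mpr hx.2) (Set.mem_Iio.mpr hx'.2) heq
    subst hj
    rfl
  · intro i _
    obtain ⟨h, ⟨hmem, hsame⟩, -⟩ := hH i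
    obtain ⟨k, hk⟩ := hsame.exists_nat_pow_eq
    refine ⟨⟨h, k % Function.minimalPeriod σ h⟩, ?_, ?_⟩
    · simp only [Finset.mem_sigma, Finset.mem_range]
      exact ⟨hmem, Nat.mod_lt _ (minimalPeriod_pos σ h)⟩
    · simp only
      rw [Function.iterate_mod_minimalPeriod_eq, Equiv.Perm.iterate_eq_pow]
      exact hk
  · rintro ⟨h, j⟩ _
    simp only
    rw [Function.iterate_succ_apply']

/-- The length of an opened cycle is the cost of the cycle plus the overlap of the closing arc. -/
lemma openCycle_length [Finite ι] (s : ι → List α) (hne : ∀ i, s i ≠ []) (σ : Equiv.Perm ι) (h : ι) :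
    (openCycle s σ h).length = cycleCost s σ h + closeOv s σ h := by
  unfold openCycle cycleCost closeOv
  rw [chainFrom_length s σ h hne]
  have hpos := minimalPeriod_pos σ h
  obtain ⟨n, hn⟩ : ∃ n, Function.minimalPeriod σ h = n + 1 :=
    ⟨Function.minimalPeriod σ h - 1, by omega⟩
  have e0 : σ^[n] h = σ.symm h := by
    have := iterate_pred_minimalPeriod σ h
    rwa [hn] at this
  have e1 : σ^[n + 1] h = h := by
    have := iterate_minimalPeriod' σ h
    rwa [hn] at this
  rw [hn, Nat.add_sub_cancel]
  unfold walkCost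
  rw [Finset.sum_range_succ, e0, e1]
  have := arcCost_add_ov (hne (σ.symm h)) (hne h)
  omega

/-- An opened cycle ends with the prefix of its head of the length of the closing overlap. -/
lemma openCycle_end [Finite ι] (s : ι → List α) (σ : Equiv.Perm ι) (h : ι) :
    ∃ A, openCycle s σ h = A ++ (s h).take (closeOv s σ h) := by
  have hsuf := chainFrom_suffix s σ h (Function.minimalPeriod σ h - 1)
  rw [iterate_pred_minimalPeriod] at hsuf
  obtain ⟨A, hA⟩ := hsuf
  refine ⟨A ++ (s (σ.symm h)).take ((s (σ.symm h)).length - closeOv s σ h), ?_⟩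
  unfold openCycle
  rw [← hA, List.append_assoc]
  congr 1
  unfold closeOv
  rw [← ov_spec (s (σ.symm h)) (s h), List.take_append_drop]

/-- Every string of the cycle of `h` is a factor of the opened cycle. -/
lemma infix_openCycle [Finite ι] (s : ι → List α) (σ : Equiv.Perm ι) (h i : ι)
    (hsame : σ.SameCycle h i) : s i <:+: openCycle s σ h := by
  obtain ⟨k, hk⟩ := hsame.exists_nat_pow_eq
  have hpos := minimalPeriod_pos σ h
  have hlt := Nat.mod_lt k hpos
  have e : σ^[k % Function.minimalPeriod σ h] h = i := by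
    rw [Function.iterate_mod_minimalPeriod_eq, Equiv.Perm.iterate_eq_pow]
    exact hk
  rw [← e]
  exact infix_chainFrom s σ h (by omega)

end Vale.Agent.Lib.P333
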