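import Mathlib

/-!
Definitions for the shortest common superstring reduction (P333).
-/

namespace Vale.Agent.Lib.P333

variable {α : Type*} [DecidableEq α] {ι : Type*}

/-- The length of the longest proper suffix-prefix overlap of `x` and `y`: the largest `l`
with `l < |x|`, `l < |y|` such that the last `l` letters of `x` are the first `l` letters of `y`
(and `0` if there is none). For `x = y` this is the longest proper border. -/
def ov (x y : List α) : ℕ :=
  Nat.findGreatest (fun l => x.drop (x.length - l) = y.take l) (min x.length y.length - 1)

/-- The cost of the arc from `x` to `y` in the distance graph: `|x| - ov x y`. -/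
def arcCost (x y : List α) : ℕ := x.length - ov x y

/-- The cost of the cycle cover given by the permutation `σ` of the family `s`
(self-loops allowed, a self-loop at `x` costing `|x|` minus its longest proper border). -/
def coverCost [Fintype ι] (s : ι → List α) (σ : Equiv.Perm ι) : ℕ :=
  ∑ i, arcCost (s i) (s (σ i))

/-- `σ` is a minimum cost cycle cover of the family `s`, i.e. an optimal solution of the
assignment problem on the distance graph. -/
def IsOptimalCover [Fintype ι] (s : ι → List α) (σ : Equiv.Perm ι) : Prop :=
  ∀ τ : Equiv.Perm ι, coverCost s σ ≤ coverCost s τ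

/-- `chainFrom s σ h n` is the string obtained by merging along their overlaps the strings
`s h, s (σ h), ..., s (σ^n h)`. -/
def chainFrom (s : ι → List α) (σ : Equiv.Perm ι) (h : ι) : ℕ → List α
  | 0 => s h
  | n + 1 => chainFrom s σ h n ++ (s (σ^[n + 1] h)).drop (ov (s (σ^[n] h)) (s (σ^[n + 1] h)))

/-- The chain of the cycle of `σ` through `h`, opened just before `h`: the merge of all strings
of the cycle in cyclic order, starting with `s h`. -/
noncomputable def openCycle (s : ι → List α) (σ : Equiv.Perm ι) (h : ι) : List α :=
  chainFrom s σ h (Function.minimalPeriod σ h - 1)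

/-- `H` contains exactly one index in each cycle of `σ`, and for `h ∈ H` the arc of the cycle
entering `h` has the least overlap among all arcs of the cycle (a weakest arc). -/
def IsWeakestHeadSet (s : ι → List α) (σ : Equiv.Perm ι) (H : Finset ι) : Prop :=
  (∀ i, ∃! h, h ∈ H ∧ σ.SameCycle h i) ∧
    ∀ h ∈ H, ∀ n : ℕ, ov (s (σ.symm h)) (s h) ≤ ov (s (σ^[n] h)) (s (σ^[n + 1] h))

/-- The total overlap of consecutive strings in a list of strings. -/
def ovSum : List (List α) → ℕ
  | [] => 0
  | [_] => 0
  | x :: y :: l => ov x y + ovSum (y :: l)

/-- The superstring of a list of strings obtained by merging consecutive strings along their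
overlaps. -/
def mergeAll : List (List α) → List α
  | [] => []
  | [x] => x
  | x :: y :: l => x ++ (mergeAll (y :: l)).drop (ov x y)

end Vale.Agent.Lib.P333
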