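import Vale.Agent.Lib.P333.Word

/-!
Assembly: the bound for chains of an optimal cycle cover opened at weakest arcs (P333).
-/

namespace Vale.Agent.Lib.P333

open Finset

variable {α : Type*} [DecidableEq α] {ι : Type*}

omit [DecidableEq α] in
lemma list_sum_eq_finset_sum [DecidableEq ι] {H : Finset ι} {l : List ι} (hnd : l.Nodup)
    (hmem : ∀ i, i ∈ l ↔ i ∈ H) (f : ι → ℕ) : (l.map f).sum = ∑ i ∈ H, f i := by
  have e : l.toFinset = H := by
    ext i
    simp [hmem]
  rw [← e, List.sum_toFinset f hnd]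

/-- Weak arc estimate for the opened cycles in a superstring. -/
lemma order_bound [Fintype ι] [DecidableEq ι] (s : ι → List α) (hne : ∀ i, s i ≠ [])
    (hfree : ∀ i j, s i <:+: s j → i = j) (σ : Equiv.Perm ι) (H : Finset ι)
    (W : List α) (hW : ∀ i, s i <:+: W) :
    ∃ l : List ι, l.Perm H.toList ∧
      ∑ h ∈ H, closeOv s σ h ≤ ovSum (l.map (openCycle s σ)) + W.length := by
  classical
  have hocc : ∀ i, ∃ a, OccAt W (s i) a := fun i => exists_occAt (hW i)
  choose a ha using hocc
  have hinj := pos_injective s W hfree a ha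
  obtain ⟨l, hnd, hmem, hsort⟩ := exists_sorted H a hinj
  refine ⟨l, ?_, ?_⟩
  · rw [List.perm_ext_iff_of_nodup hnd (Finset.nodup_toList H)]
    intro i
    rw [hmem, Finset.mem_toList]
  have hcl : ∀ i, closeOv s σ i < (s i).length := fun i =>
    ov_lt_right _ (hne _) (hne _)
  rw [← list_sum_eq_finset_sum hnd hmem]
  cases l with
  | nil => simp
  | cons h l =>
    have key := order_sum (openCycle s σ) a (closeOv s σ) W.length
      (fun i j hij => by
        have hij' : i ≠ j := by rintro rfl; omega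
        exact le_ov_of_occ (ha i) (ha j) hij (hcl i).le (openCycle_end s σ i)
          (head_prefix_chainFrom s σ j _) (fun hin => hij' (hfree j i hin).symm))
      l h hsort (fun i _ => by
        have h1 := (ha i).1
        have h2 := hcl i
        omega)
    omega

/-- Existence of a head set with weakest arcs for every permutation. -/
lemma exists_weakestHeadSet [Fintype ι] [DecidableEq ι] (s : ι → List α) (σ : Equiv.Perm ι) :
    ∃ H, IsWeakestHeadSet s σ H := by
  classical
  -- for every `i` a head in its cycle minimising the overlap of the entering arc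
  let setoid : Setoid ι := Equiv.Perm.SameCycle.setoid σ
  have hchoose : ∀ q : Quotient setoid, ∃ h : ι, Quotient.mk setoid h = q ∧
      ∀ i : ι, Quotient.mk setoid i = q → ov (s (σ.symm h)) (s h) ≤ ov (s (σ.symm i)) (s i) := by
    intro q
    have hne : (Finset.univ.filter (fun i : ι => Quotient.mk setoid i = q)).Nonempty := by
      obtain ⟨i, hi⟩ := Quotient.exists_rep q
      exact ⟨i, by simp [hi]⟩
    obtain ⟨h, hh, hmin⟩ := Finset.exists_min_image _ (fun i => ov (s (σ.symm i)) (s i)) hne
    refine ⟨h, (Finset.mem_filter.mp hh).2, fun i hi => hmin i (by simp [hi])⟩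
  choose head hhead hminimal using hchoose
  have hsame : ∀ i j : ι, Quotient.mk setoid i = Quotient.mk setoid j ↔ σ.SameCycle i j := by
    intro i j
    exact Quotient.eq
  let H : Finset ι := Finset.univ.image head
  refine ⟨H, ?_, ?_⟩
  · intro i
    refine ⟨head (Quotient.mk setoid i), ⟨Finset.mem_image_of_mem _ (Finset.mem_univ _), ?_⟩, ?_⟩
    · exact (hsame _ _).mp (hhead _)
    · rintro h ⟨hh, hsm⟩
      obtain ⟨q, -, rfl⟩ := Finset.mem_image.mp hh
      have h1 : Quotient.mk setoid (head q) = q := hhead q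
      have h2 : Quotient.mk setoid (head q) = Quotient.mk setoid i := (hsame _ _).mpr hsm
      rw [← h2, h1]
  · intro h hh n
    obtain ⟨q, -, rfl⟩ := Finset.mem_image.mp hh
    set i := σ^[n + 1] (head q) with hi
    have h1 : σ.symm i = σ^[n] (head q) := by
      rw [hi, Function.iterate_succ_apply']
      simp
    have h2 : Quotient.mk setoid i = q := by
      rw [← hhead q]
      exact (hsame _ _).mpr (sameCycle_iterate σ (head q) (n + 1)).symm
    have := hminimal q i h2
    rwa [h1] at this

/-- Main theorem: bound for the merge of the opened cycles in a good order. -/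
theorem main_bound [Fintype ι] [DecidableEq ι] (s : ι → List α) (hne : ∀ i, s i ≠ [])
    (hfree : ∀ i j, s i <:+: s j → i = j) (σ : Equiv.Perm ι) (hσ : IsOptimalCover s σ)
    (H : Finset ι) (hH : IsWeakestHeadSet s σ H) (ord : List ι) (hnd : ord.Nodup)
    (hmem : ∀ i, i ∈ ord ↔ i ∈ H) (a : ℝ) (ha0 : 0 ≤ a) (ha1 : a ≤ 1)
    (happrox : ∀ ord' : List ι, ord'.Perm ord →
      a * (ovSum (ord'.map (openCycle s σ)) : ℝ) ≤ (ovSum (ord.map (openCycle s σ)) : ℝ))
    (W : List α) (hW : ∀ i, s i <:+: W) :
    (∑ h ∈ H, (openCycle s σ h).length ≤ W.length + 2 * coverCost s σ) ∧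
    (∀ i, s i <:+: mergeAll (ord.map (openCycle s σ))) ∧
    (((mergeAll (ord.map (openCycle s σ))).length : ℝ)
      ≤ W.length + (2 - a) * coverCost s σ) ∧
    (((mergeAll (ord.map (openCycle s σ))).length : ℝ) ≤ (3 - a) * W.length) := by
  classical
  have hZne : ∀ x ∈ ord.map (openCycle s σ), x ≠ [] := by
    intro x hx
    obtain ⟨h, -, rfl⟩ := List.mem_map.mp hx
    have hp : s h <+: openCycle s σ h := head_prefix_chainFrom s σ h _
    intro hnil
    rw [hnil] at hp
    exact hne h (List.prefix_nil.mp hp)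
  have hcost : coverCost s σ = ∑ h ∈ H, cycleCost s σ h := coverCost_eq_sum s σ H hH.1
  have hT : ∑ h ∈ H, (openCycle s σ h).length = coverCost s σ + ∑ h ∈ H, closeOv s σ h := by
    rw [hcost, ← Finset.sum_add_distrib]
    exact Finset.sum_congr rfl (fun h _ => openCycle_length s hne σ h)
  have hcore := cover_core s hne hfree σ hσ H hH W hW
  have hTT : ∑ h ∈ H, closeOv s σ h ≤ W.length + coverCost s σ := by
    rw [hcost]
    calc ∑ h ∈ H, closeOv s σ h
        ≤ ∑ h ∈ H, ((closeOv s σ h + 2 - cycleCost s σ h) + cycleCost s σ h) :=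
          Finset.sum_le_sum (fun h _ => by omega)
      _ = ∑ h ∈ H, (closeOv s σ h + 2 - cycleCost s σ h) + ∑ h ∈ H, cycleCost s σ h :=
          Finset.sum_add_distrib
      _ ≤ _ := by omega
  have hC : coverCost s σ ≤ W.length := coverCost_le s W hne hfree hW hσ
  obtain ⟨l, hlperm, hl⟩ := order_bound s hne hfree σ H W hW
  have hlord : l.Perm ord := by
    refine hlperm.trans ?_
    rw [List.perm_ext_iff_of_nodup (Finset.nodup_toList H) hnd]
    intro i
    rw [Finset.mem_toList, hmem]
  have happ := happrox l hlord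
  have hlen := mergeAll_length_add (ord.map (openCycle s σ)) hZne
  have hsum : ((ord.map (openCycle s σ)).map List.length).sum
      = ∑ h ∈ H, (openCycle s σ h).length := by
    rw [List.map_map]
    exact list_sum_eq_finset_sum hnd hmem _
  have e1 : (((mergeAll (ord.map (openCycle s σ))).length : ℕ) : ℝ)
      + ((ovSum (ord.map (openCycle s σ)) : ℕ) : ℝ)
      = ((coverCost s σ : ℕ) : ℝ) + ((∑ h ∈ H, closeOv s σ h : ℕ) : ℝ) := by
    have : (mergeAll (ord.map (openCycle s σ))).length + ovSum (ord.map (openCycle s σ))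
        = coverCost s σ + ∑ h ∈ H, closeOv s σ h := by
      rw [hlen, hsum, hT]
    exact_mod_cast this
  have e2 : ((∑ h ∈ H, closeOv s σ h : ℕ) : ℝ) ≤ ((W.length : ℕ) : ℝ) + ((coverCost s σ : ℕ) : ℝ) := by
    exact_mod_cast hTT
  have e3 : ((coverCost s σ : ℕ) : ℝ) ≤ ((W.length : ℕ) : ℝ) := by exact_mod_cast hC
  have e4 : ((∑ h ∈ H, closeOv s σ h : ℕ) : ℝ)
      ≤ ((ovSum (l.map (openCycle s σ)) : ℕ) : ℝ) + ((W.length : ℕ) : ℝ) := by
    exact_mod_cast hl
  have hfinal : ((mergeAll (ord.map (openCycle s σ))).length : ℝ)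
      ≤ W.length + (2 - a) * coverCost s σ := by
    generalize (((mergeAll (ord.map (openCycle s σ))).length : ℕ) : ℝ) = n at *
    generalize ((ovSum (ord.map (openCycle s σ)) : ℕ) : ℝ) = O at *
    generalize ((ovSum (l.map (openCycle s σ)) : ℕ) : ℝ) = O0 at *
    generalize ((W.length : ℕ) : ℝ) = wl at *
    generalize ((coverCost s σ : ℕ) : ℝ) = C at *
    generalize ((∑ h ∈ H, closeOv s σ h : ℕ) : ℝ) = TT at *
    have h6 : 0 ≤ a * (O0 + wl - TT) := mul_nonneg ha0 (by linarith)
    have h7 : 0 ≤ (1 - a) * (wl + C - TT) := mul_nonneg (by linarith) (by linarith)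
    nlinarith
  refine ⟨by omega, ?_, hfinal, ?_⟩
  · intro i
    obtain ⟨h, ⟨hh, hsame⟩, -⟩ := hH.1 i
    exact (infix_openCycle s σ h i hsame).trans
      (mem_infix_mergeAll _ hZne _ (List.mem_map.mpr ⟨h, (hmem h).mpr hh, rfl⟩))
  · have h8 : 0 ≤ (2 - a) * (((W.length : ℕ) : ℝ) - ((coverCost s σ : ℕ) : ℝ)) :=
      mul_nonneg (by linarith) (by linarith)
    nlinarith

end Vale.Agent.Lib.P333
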