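import Mathlib

/-!
A self-contained `6/11`-approximation for the maximum Hamiltonian path problem on a complete
digraph with nonnegative integer weights (P333).

Only subroutine: the assignment problem.
-/

set_option linter.unusedSectionVars false
set_option linter.unusedVariables false

namespace Vale.Agent.Lib.P333.Atsp

open Finset Equiv

variable {κ : Type*}

/-- The consecutive pairs of a list. -/
def arcs : List κ → List (κ × κ)
  | [] => []
  | [_] => []
  | x :: y :: l => (x, y) :: arcs (y :: l)

/-- The weight of a list: the sum of the weights of its consecutive pairs. -/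
def pathVal (w : κ → κ → ℕ) : List κ → ℕ
  | [] => 0
  | [_] => 0
  | x :: y :: l => w x y + pathVal w (y :: l)

lemma arcs_cons_cons (x y : κ) (l : List κ) : arcs (x :: y :: l) = (x, y) :: arcs (y :: l) := rfl

lemma pathVal_cons_cons (w : κ → κ → ℕ) (x y : κ) (l : List κ) :
    pathVal w (x :: y :: l) = w x y + pathVal w (y :: l) := rfl

lemma pathVal_eq_sum (w : κ → κ → ℕ) (l : List κ) :
    pathVal w l = ((arcs l).map (fun p => w p.1 p.2)).sum := by
  induction l with
  | nil => rfl
  | cons x l ih =>
    cases l with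
    | nil => rfl
    | cons y l => simp only [pathVal_cons_cons, arcs_cons_cons, List.map_cons, List.sum_cons, ih]

lemma mem_of_mem_arcs {l : List κ} {p : κ × κ} (h : p ∈ arcs l) : p.1 ∈ l ∧ p.2 ∈ l := by
  induction l with
  | nil => simp [arcs] at h
  | cons x l ih =>
    cases l with
    | nil => simp [arcs] at h
    | cons y l =>
      rw [arcs_cons_cons, List.mem_cons] at h
      rcases h with rfl | h
      · simp
      · have := ih h
        exact ⟨List.mem_cons_of_mem _ this.1, List.mem_cons_of_mem _ this.2⟩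

lemma arcs_append_singleton_cons (A : List κ) (x y : κ) (B : List κ) :
    arcs (A ++ x :: y :: B) = arcs (A ++ [x]) ++ (x, y) :: arcs (y :: B) := by
  induction A with
  | nil => simp [arcs]
  | cons a A ih =>
    cases A with
    | nil => simp [arcs]
    | cons b A =>
      simp only [List.cons_append] at ih ⊢
      simp only [arcs_cons_cons, ih, List.cons_append]

lemma arcs_nodup {l : List κ} (hl : l.Nodup) : (arcs l).Nodup := by
  induction l with
  | nil => simp [arcs]
  | cons x l ih =>
    cases l with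
    | nil => simp [arcs]
    | cons y l =>
      rw [arcs_cons_cons, List.nodup_cons]
      refine ⟨?_, ih (List.Nodup.of_cons hl)⟩
      intro h
      have := (mem_of_mem_arcs h).1
      exact (List.nodup_cons.mp hl).1 this

lemma arcs_fst_inj {l : List κ} (hl : l.Nodup) {x y y' : κ}
    (h : (x, y) ∈ arcs l) (h' : (x, y') ∈ arcs l) : y = y' := by
  induction l with
  | nil => simp [arcs] at h
  | cons a l ih =>
    cases l with
    | nil => simp [arcs] at h
    | cons b l =>
      rw [arcs_cons_cons, List.mem_cons] at h h'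
      have hn := (List.nodup_cons.mp hl).1
      rcases h with h | h <;> rcases h' with h' | h'
      · simp only [Prod.mk.injEq] at h h'; rw [h.2, h'.2]
      · simp only [Prod.mk.injEq] at h
        exact absurd (h.1 ▸ (mem_of_mem_arcs h').1) hn
      · simp only [Prod.mk.injEq] at h'
        exact absurd (h'.1 ▸ (mem_of_mem_arcs h).1) hn
      · exact ih (List.Nodup.of_cons hl) h h'

lemma arcs_snd_inj {l : List κ} (hl : l.Nodup) {x x' y : κ}
    (h : (x, y) ∈ arcs l) (h' : (x', y) ∈ arcs l) : x = x' := by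
  induction l with
  | nil => simp [arcs] at h
  | cons a l ih =>
    cases l with
    | nil => simp [arcs] at h
    | cons b l =>
      rw [arcs_cons_cons, List.mem_cons] at h h'
      have hn := List.nodup_cons.mp (List.Nodup.of_cons hl)
      -- `y` cannot be the head `b` and occur as a second component further on
      have key : ∀ {z : κ × κ}, z ∈ arcs (b :: l) → z.2 ≠ b := by
        intro z hz
        clear h h' ih
        revert hz
        generalize hL : (b :: l) = L at *
        cases l with
        | nil => subst hL; simp [arcs]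
        | cons c l =>
          subst hL
          intro hz
          rw [arcs_cons_cons, List.mem_cons] at hz
          rcases hz with rfl | hz
          · exact fun e => hn.1 (by simp [e.symm])
          · intro e
            have := (mem_of_mem_arcs hz).2
            rw [e] at this
            exact hn.1 this
      rcases h with h | h <;> rcases h' with h' | h'
      · simp only [Prod.mk.injEq] at h h'; rw [h.1, h'.1]
      · simp only [Prod.mk.injEq] at h
        exact absurd h.2 (by simpa using key h')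
      · simp only [Prod.mk.injEq] at h'
        exact absurd h'.2 (by simpa using key h)
      · exact ih (List.Nodup.of_cons hl) h h'

lemma arcs_ne {l : List κ} (hl : l.Nodup) {x y : κ} (h : (x, y) ∈ arcs l) : x ≠ y := by
  induction l with
  | nil => simp [arcs] at h
  | cons a l ih =>
    cases l with
    | nil => simp [arcs] at h
    | cons b l =>
      rw [arcs_cons_cons, List.mem_cons] at h
      rcases h with h | h
      · simp only [Prod.mk.injEq] at h
        rw [h.1, h.2]
        intro e
        exact (List.nodup_cons.mp hl).1 (by simp [e])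
      · exact ih (List.Nodup.of_cons hl) h


lemma mem_arcs_iff {l : List κ} {x y : κ} :
    (x, y) ∈ arcs l ↔ ∃ A B, l = A ++ x :: y :: B := by
  constructor
  · intro h
    induction l with
    | nil => simp [arcs] at h
    | cons a l ih =>
      cases l with
      | nil => simp [arcs] at h
      | cons b l =>
        rw [arcs_cons_cons, List.mem_cons] at h
        rcases h with h | h
        · simp only [Prod.mk.injEq] at h
          exact ⟨[], l, by simp [h.1, h.2]⟩
        · obtain ⟨A, B, hAB⟩ := ih h
          exact ⟨a :: A, B, by simp [hAB]⟩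
  · rintro ⟨A, B, rfl⟩
    rw [arcs_append_singleton_cons]
    simp

lemma exists_eq_append_last {L : List κ} {x : κ} (hx : x ∈ L)
    (h : ∀ y, (x, y) ∉ arcs L) : ∃ A, L = A ++ [x] := by
  obtain ⟨A, B, rfl⟩ := List.append_of_mem hx
  cases B with
  | nil => exact ⟨A, rfl⟩
  | cons b B => exact absurd (mem_arcs_iff.mpr ⟨A, B, rfl⟩) (h b)

lemma exists_eq_cons_first {L : List κ} {y : κ} (hy : y ∈ L)
    (h : ∀ x, (x, y) ∉ arcs L) : ∃ B, L = y :: B := by
  obtain ⟨A, B, rfl⟩ := List.append_of_mem hy
  rcases List.eq_nil_or_concat A with rfl | ⟨A', a, rfl⟩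
  · exact ⟨B, rfl⟩
  · refine absurd (mem_arcs_iff.mpr ⟨A', B, ?_⟩) (h a)
    simp

lemma exists_arc_of_mem_init {A : List κ} {a x : κ} (ha : a ∈ A) :
    ∃ b, (a, b) ∈ arcs (A ++ [x]) := by
  obtain ⟨A1, A2, rfl⟩ := List.append_of_mem ha
  cases A2 with
  | nil => exact ⟨x, mem_arcs_iff.mpr ⟨A1, [], by simp⟩⟩
  | cons c A2 => exact ⟨c, mem_arcs_iff.mpr ⟨A1, A2 ++ [x], by simp⟩⟩

section forest

variable [Fintype κ] [DecidableEq κ]

/-- A Hamiltonian order of the nodes: a list containing every node exactly once. -/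
def IsHam (l : List κ) : Prop := l.Nodup ∧ ∀ x, x ∈ l

/-- The pair `(σ, K)` describes a set of disjoint directed paths (a linear forest): the arcs
`x → σ x` for `x ∉ K`, provided that `K` hits every cycle of `σ`. -/
def Hits (σ : Perm κ) (K : Finset κ) : Prop := ∀ x, ∃ n : ℕ, (σ ^ n) x ∈ K

/-- Total weight of the arcs `x → σ x`, `x ∉ K`. -/
def forestVal (w : κ → κ → ℕ) (σ : Perm κ) (K : Finset κ) : ℕ := ∑ x ∈ Kᶜ, w x (σ x)

/-- The list `l` contains every arc `x → σ x`, `x ∉ K`, as a pair of consecutive entries; i.e. `l`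
is a concatenation of the paths of the linear forest. -/
def Follows (l : List κ) (σ : Perm κ) (K : Finset κ) : Prop := ∀ x, x ∉ K → (x, σ x) ∈ arcs l

lemma exists_partition (σ : Perm κ) (F : Finset κ) (hF : ∀ x, ∃ n : ℕ, (σ ^ n) x ∉ F) :
    ∃ P : List (List κ), P.flatten.Nodup ∧ (∀ x, x ∈ P.flatten) ∧
      (∀ L ∈ P, ∀ p ∈ arcs L, p.1 ∈ F ∧ p.2 = σ p.1) ∧
      (∀ x ∈ F, ∃ L ∈ P, (x, σ x) ∈ arcs L) := by
  induction F using Finset.induction_on with
  | empty =>
    refine ⟨(Finset.univ : Finset κ).toList.map (fun x => [x]), ?_, ?_, ?_, ?_⟩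
    · have : ((Finset.univ : Finset κ).toList.map (fun x => [x])).flatten
          = (Finset.univ : Finset κ).toList := by
        generalize (Finset.univ : Finset κ).toList = L
        induction L with
        | nil => rfl
        | cons a L ih => simpa using ih
      rw [this]
      exact Finset.nodup_toList _
    · intro x
      simp only [List.mem_flatten, List.mem_map, Finset.mem_toList, Finset.mem_univ, true_and]
      exact ⟨[x], ⟨x, rfl⟩, by simp⟩
    · intro L hL p hp
      obtain ⟨x, _, rfl⟩ := List.mem_map.mp hL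
      simp [arcs] at hp
    · intro x hx
      simp at hx
  | insert x F hx ih =>
    have hF' : ∀ y, ∃ n : ℕ, (σ ^ n) y ∉ F := by
      intro y
      obtain ⟨n, hn⟩ := hF y
      exact ⟨n, fun h => hn (Finset.mem_insert_of_mem h)⟩
    obtain ⟨P, h1, h2, h3, h4⟩ := ih hF'
    obtain ⟨L1, hL1, hxL1⟩ := List.mem_flatten.mp (h2 x)
    obtain ⟨L2, hL2, hyL2⟩ := List.mem_flatten.mp (h2 (σ x))
    -- `x` is last in `L1`
    obtain ⟨A, hA⟩ : ∃ A, L1 = A ++ [x] := by
      refine exists_eq_append_last hxL1 (fun y hy => hx ?_)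
      exact (h3 L1 hL1 _ hy).1
    -- `σ x` is first in `L2`
    obtain ⟨B, hB⟩ : ∃ B, L2 = σ x :: B := by
      refine exists_eq_cons_first hyL2 (fun a ha => hx ?_)
      have := h3 L2 hL2 _ ha
      have e : σ x = σ a := this.2
      rw [σ.injective e]
      exact this.1
    by_cases hLL : L1 = L2
    · -- a closed orbit inside `insert x F`: impossible
      exfalso
      have hcl : ∀ a ∈ L1, σ a ∈ L1 ∧ a ∈ insert x F := by
        intro a ha
        rw [hA] at ha
        rcases List.mem_append.mp ha with ha | ha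
        · obtain ⟨b, hb⟩ := exists_arc_of_mem_init (x := x) ha
          rw [← hA] at hb
          have := h3 L1 hL1 _ hb
          refine ⟨?_, Finset.mem_insert_of_mem this.1⟩
          have e : b = σ a := this.2
          rw [← e]
          exact (mem_of_mem_arcs hb).2
        · have : a = x := by simpa using ha
          subst this
          exact ⟨hLL ▸ hyL2, Finset.mem_insert_self _ _⟩
      have hall : ∀ n : ℕ, (σ ^ n) x ∈ L1 := by
        intro n
        induction n with
        | zero => simpa using hxL1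
        | succ n ih =>
          rw [pow_succ', Perm.mul_apply]
          exact (hcl _ ih).1
      obtain ⟨n, hn⟩ := hF x
      exact hn (hcl _ (hall n)).2
    · -- merge the two lists
      set rest := (P.erase L1).erase L2 with hrest
      have hL2' : L2 ∈ P.erase L1 := (List.mem_erase_of_ne (Ne.symm hLL)).mpr hL2
      have hperm : P.Perm (L1 :: L2 :: rest) :=
        (List.perm_cons_erase hL1).trans ((List.perm_cons_erase hL2').cons _)
      have hmemP : ∀ L, L ∈ P ↔ L = L1 ∨ L = L2 ∨ L ∈ rest := by
        intro L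
        rw [hperm.mem_iff]
        simp
      have hflat : P.flatten.Perm (((L1 ++ L2) :: rest).flatten) := by
        have := hperm.flatten
        simpa [List.flatten, List.append_assoc] using this
      have harcs : arcs (L1 ++ L2) = arcs L1 ++ (x, σ x) :: arcs L2 := by
        rw [hA, hB, List.append_assoc]
        simpa using arcs_append_singleton_cons A x (σ x) B
      refine ⟨(L1 ++ L2) :: rest, hflat.nodup_iff.mp h1, fun y => hflat.mem_iff.mp (h2 y), ?_, ?_⟩
      · intro L hL p hp
        rcases List.mem_cons.mp hL with rfl | hL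
        · rw [harcs, List.mem_append, List.mem_cons] at hp
          rcases hp with hp | rfl | hp
          · have := h3 L1 hL1 p hp
            exact ⟨Finset.mem_insert_of_mem this.1, this.2⟩
          · exact ⟨Finset.mem_insert_self _ _, rfl⟩
          · have := h3 L2 hL2 p hp
            exact ⟨Finset.mem_insert_of_mem this.1, this.2⟩
        · have := h3 L ((hmemP L).mpr (Or.inr (Or.inr hL))) p hp
          exact ⟨Finset.mem_insert_of_mem this.1, this.2⟩
      · intro y hy
        rcases Finset.mem_insert.mp hy with rfl | hy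
        · exact ⟨_, List.mem_cons_self, by rw [harcs]; simp⟩
        · obtain ⟨L, hL, hyL⟩ := h4 y hy
          rcases (hmemP L).mp hL with rfl | rfl | hL
          · exact ⟨_, List.mem_cons_self, by rw [harcs]; simp [hyL]⟩
          · exact ⟨_, List.mem_cons_self, by rw [harcs]; simp [hyL]⟩
          · exact ⟨L, List.mem_cons_of_mem _ hL, hyL⟩

/-- Every linear forest extends to a Hamiltonian order. -/
theorem exists_order {σ : Perm κ} {K : Finset κ} (h : Hits σ K) :
    ∃ l : List κ, IsHam l ∧ Follows l σ K := by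
  obtain ⟨P, h1, h2, _, h4⟩ := exists_partition σ Kᶜ (by
    intro x
    obtain ⟨n, hn⟩ := h x
    exact ⟨n, by simpa using hn⟩)
  refine ⟨P.flatten, ⟨h1, h2⟩, ?_⟩
  intro x hx
  obtain ⟨L, hL, hxL⟩ := h4 x (by simpa using hx)
  obtain ⟨A, B, hAB⟩ := mem_arcs_iff.mp hxL
  obtain ⟨P1, P2, rfl⟩ := List.append_of_mem hL
  refine mem_arcs_iff.mpr ⟨P1.flatten ++ A, B ++ P2.flatten, ?_⟩
  simp [hAB, List.flatten_append]

/-- The weight of an order containing a linear forest is at least the weight of the forest. -/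
lemma forestVal_le_pathVal (w : κ → κ → ℕ) {σ : Perm κ} {K : Finset κ} {l : List κ}
    (hl : l.Nodup) (hf : Follows l σ K) : forestVal w σ K ≤ pathVal w l := by
  classical
  have hnd := arcs_nodup hl
  rw [pathVal_eq_sum, ← List.sum_toFinset _ hnd]
  unfold forestVal
  have hinj : Set.InjOn (fun x => (x, σ x)) (Kᶜ : Finset κ) := by
    intro a _ b _ hab
    exact (Prod.mk.inj hab).1
  calc ∑ x ∈ Kᶜ, w x (σ x) = ∑ p ∈ (Kᶜ : Finset κ).image (fun x => (x, σ x)), w p.1 p.2 := by
        rw [Finset.sum_image hinj]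
    _ ≤ ∑ p ∈ (arcs l).toFinset, w p.1 p.2 := by
        apply Finset.sum_le_sum_of_subset
        intro p hp
        obtain ⟨x, hx, rfl⟩ := Finset.mem_image.mp hp
        exact List.mem_toFinset.mpr (hf x (by simpa using hx))

end forest


section cycles

variable [Fintype κ] [DecidableEq κ]

/-- A representative of the cycle of `σ` through `x`. -/
noncomputable def crep (σ : Perm κ) (x : κ) : κ :=
  (Quotient.mk (Perm.SameCycle.setoid σ) x).out

lemma crep_sameCycle (σ : Perm κ) (x : κ) : σ.SameCycle x (crep σ x) := by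
  have : (Perm.SameCycle.setoid σ).r (crep σ x) x :=
    Quotient.mk_out (s := Perm.SameCycle.setoid σ) x
  exact (show σ.SameCycle (crep σ x) x from this).symm

lemma crep_eq_iff {σ : Perm κ} {x y : κ} : crep σ x = crep σ y ↔ σ.SameCycle x y := by
  constructor
  · intro h
    have h1 := crep_sameCycle σ x
    have h2 := crep_sameCycle σ y
    rw [← h] at h2
    exact h1.trans h2.symm
  · intro h
    unfold crep
    congr 1
    exact Quotient.sound (s := Perm.SameCycle.setoid σ) h

lemma crep_apply (σ : Perm κ) (x : κ) : crep σ (σ x) = crep σ x :=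
  crep_eq_iff.mpr (Perm.sameCycle_apply_left.mpr (Perm.SameCycle.refl σ x))

lemma crep_symm_apply (σ : Perm κ) (x : κ) : crep σ (σ.symm x) = crep σ x := by
  have := crep_apply σ (σ.symm x)
  simpa using this.symm

lemma crep_pow (σ : Perm κ) (n : ℕ) (x : κ) : crep σ ((σ ^ n) x) = crep σ x := by
  induction n with
  | zero => simp
  | succ n ih => rw [pow_succ', Perm.mul_apply, crep_apply, ih]

lemma crep_crep (σ : Perm κ) (x : κ) : crep σ (crep σ x) = crep σ x :=
  crep_eq_iff.mpr (crep_sameCycle σ x).symm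

lemma exists_pow_of_crep_eq {σ : Perm κ} {x y : κ} (h : crep σ x = crep σ y) :
    ∃ n : ℕ, (σ ^ n) x = y := by
  obtain ⟨n, _, hn⟩ := (crep_eq_iff.mp h).exists_pow_eq'
  exact ⟨n, hn⟩

open Classical in
/-- In the cycle of `σ` with representative `u`: an element of `K` of least value `v`. -/
noncomputable def pick (σ : Perm κ) (K : Finset κ) (v : κ → ℕ) (u : κ) : κ :=
  if h : (K.filter (fun x => crep σ x = u)).Nonempty then
    (Finset.exists_min_image _ v h).choose else u

/-- One element of `K` of least value `v` on every cycle of `σ` that meets `K`. -/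
noncomputable def lightest (σ : Perm κ) (K : Finset κ) (v : κ → ℕ) : Finset κ :=
  K.image (fun x => pick σ K v (crep σ x))

lemma pick_spec (σ : Perm κ) (K : Finset κ) (v : κ → ℕ) {u : κ} (hu : u ∈ K.image (crep σ)) :
    pick σ K v u ∈ K ∧ crep σ (pick σ K v u) = u ∧
      ∀ z ∈ K, crep σ z = u → v (pick σ K v u) ≤ v z := by
  classical
  have h : (K.filter (fun x => crep σ x = u)).Nonempty := by
    obtain ⟨x, hx, rfl⟩ := Finset.mem_image.mp hu
    exact ⟨x, by simp [hx]⟩
  unfold pick
  rw [dif_pos h]
  have := (Finset.exists_min_image _ v h).choose_spec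
  have h1 := Finset.mem_filter.mp this.1
  exact ⟨h1.1, h1.2, fun z hz hzu => this.2 z (by simp [hz, hzu])⟩

lemma lightest_subset (σ : Perm κ) (K : Finset κ) (v : κ → ℕ) : lightest σ K v ⊆ K := by
  intro y hy
  obtain ⟨x, hx, rfl⟩ := Finset.mem_image.mp hy
  exact (pick_spec σ K v (Finset.mem_image_of_mem _ hx)).1

lemma lightest_eq (σ : Perm κ) (K : Finset κ) (v : κ → ℕ) :
    lightest σ K v = (K.image (crep σ)).image (pick σ K v) := by
  unfold lightest
  rw [Finset.image_image]
  rfl

/-- `K'` contains exactly one element of `K` on every cycle of `σ` meeting `K`, of least value `v`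
on that cycle (ties broken arbitrarily). -/
def IsLightest (σ : Perm κ) (K : Finset κ) (v : κ → ℕ) (K' : Finset κ) : Prop :=
  K' ⊆ K ∧ (∀ x ∈ K, ∃! y, y ∈ K' ∧ σ.SameCycle x y) ∧
    ∀ y ∈ K', ∀ x ∈ K, σ.SameCycle x y → v y ≤ v x

lemma lightest_isLightest (σ : Perm κ) (K : Finset κ) (v : κ → ℕ) :
    IsLightest σ K v (lightest σ K v) := by
  refine ⟨lightest_subset σ K v, ?_, ?_⟩
  · intro x hx
    have hu : crep σ x ∈ K.image (crep σ) := Finset.mem_image_of_mem _ hx
    obtain ⟨_, h2, _⟩ := pick_spec σ K v hu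
    refine ⟨pick σ K v (crep σ x), ⟨Finset.mem_image.mpr ⟨x, hx, rfl⟩, crep_eq_iff.mp h2.symm⟩, ?_⟩
    rintro y ⟨hy, hxy⟩
    obtain ⟨x', hx', rfl⟩ := Finset.mem_image.mp hy
    have hu' : crep σ x' ∈ K.image (crep σ) := Finset.mem_image_of_mem _ hx'
    obtain ⟨_, h2', _⟩ := pick_spec σ K v hu'
    have : crep σ x' = crep σ x := by
      rw [← h2', crep_eq_iff.mpr hxy]
    simp only [this]
  · intro y hy x hx hxy
    obtain ⟨x', hx', rfl⟩ := Finset.mem_image.mp hy
    have hu' : crep σ x' ∈ K.image (crep σ) := Finset.mem_image_of_mem _ hx'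
    obtain ⟨_, h2', h3'⟩ := pick_spec σ K v hu'
    exact h3' x hx (by rw [crep_eq_iff.mpr hxy, h2'])

lemma sum_fiber_lightest {σ : Perm κ} {K : Finset κ} {v : κ → ℕ} {K' : Finset κ}
    (hK' : IsLightest σ K v K') (g : κ → ℕ) :
    ∑ y ∈ K', ∑ x ∈ K.filter (fun x => crep σ x = crep σ y), g x = ∑ x ∈ K, g x := by
  have h1 : ∀ y, ∑ x ∈ K.filter (fun x => crep σ x = crep σ y), g x
      = ∑ x ∈ K, if crep σ x = crep σ y then g x else 0 := fun y => Finset.sum_filter _ _
  simp only [h1]
  rw [Finset.sum_comm]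
  apply Finset.sum_congr rfl
  intro x hx
  obtain ⟨y, ⟨hy, hxy⟩, huniq⟩ := hK'.2.1 x hx
  rw [Finset.sum_eq_single_of_mem y hy]
  · rw [if_pos (crep_eq_iff.mpr hxy)]
  · intro z hz hzy
    rw [if_neg]
    intro e
    exact hzy (huniq z ⟨hz, crep_eq_iff.mp e⟩)

/-- Cutting the lightest arc of each cycle: the cut arcs carry at most half of the weight, if a
cycle with a single element of `K` has weight zero. -/
lemma two_mul_sum_lightest_le {σ : Perm κ} {K : Finset κ} {v : κ → ℕ} {K' : Finset κ}
    (hK' : IsLightest σ K v K')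
    (hz : ∀ y ∈ K, (∀ z ∈ K, crep σ z = crep σ y → z = y) → v y = 0) :
    2 * ∑ y ∈ K', v y ≤ ∑ x ∈ K, v x := by
  rw [← sum_fiber_lightest hK' v, Finset.mul_sum]
  apply Finset.sum_le_sum
  intro y hy
  have h1 : y ∈ K := hK'.1 hy
  by_cases hs : ∀ z ∈ K, crep σ z = crep σ y → z = y
  · rw [hz y h1 hs]; simp
  · push Not at hs
    obtain ⟨z, hzK, hzc, hzy⟩ := hs
    have hyF : y ∈ K.filter (fun x => crep σ x = crep σ y) := by simp [h1]
    have hzF : z ∈ K.filter (fun x => crep σ x = crep σ y) := by simp [hzK, hzc]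
    have : v y + v z ≤ ∑ x ∈ K.filter (fun x => crep σ x = crep σ y), v x := by
      have hsub : ({y, z} : Finset κ) ⊆ K.filter (fun x => crep σ x = crep σ y) := by
        intro a ha
        rcases Finset.mem_insert.mp ha with rfl | ha
        · exact hyF
        · rw [Finset.mem_singleton.mp ha]; exact hzF
      have := Finset.sum_le_sum_of_subset (f := v) hsub
      rwa [Finset.sum_pair (Ne.symm hzy)] at this
    have h4 := hK'.2.2 y hy z hzK (crep_eq_iff.mp hzc)
    omega

lemma hits_of_isLightest {σ : Perm κ} {K : Finset κ} {v : κ → ℕ} {K' : Finset κ}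
    (hK' : IsLightest σ K v K') (h : Hits σ K) : Hits σ K' := by
  intro x
  obtain ⟨n, hn⟩ := h x
  obtain ⟨y, ⟨hy, hxy⟩, _⟩ := hK'.2.1 _ hn
  have h1 : crep σ x = crep σ y := by rw [← crep_pow σ n x]; exact crep_eq_iff.mpr hxy
  obtain ⟨m, hm⟩ := exists_pow_of_crep_eq h1
  exact ⟨m, by rw [hm]; exact hy⟩

end cycles


section levels

variable [Fintype κ] [DecidableEq κ]

/-- The weight of a permutation (a cycle cover). -/
def permVal (w : κ → κ → ℕ) (σ : Perm κ) : ℕ := ∑ x, w x (σ x)

/-- `A` is a maximum weight permutation without fixed points (an assignment problem). -/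
def IsMaxDer (w : κ → κ → ℕ) (A : Perm κ) : Prop :=
  (∀ x, A x ≠ x) ∧ ∀ B : Perm κ, (∀ x, B x ≠ x) → permVal w B ≤ permVal w A

lemma formPerm_of_arc {l : List κ} (hl : l.Nodup) {x y : κ} (h : (x, y) ∈ arcs l) :
    l.formPerm x = y := by
  obtain ⟨A, B, rfl⟩ := mem_arcs_iff.mp h
  have h1 : A.length + 1 < (A ++ x :: y :: B).length := by simp
  have := List.formPerm_apply_lt_getElem (A ++ x :: y :: B) hl A.length h1
  simpa using this

lemma pathVal_le_sum_formPerm (w : κ → κ → ℕ) {l : List κ} (hl : l.Nodup) (Q : Finset κ)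
    (hQ : ∀ x ∈ l, x ∈ Q) : pathVal w l ≤ ∑ x ∈ Q, w x (l.formPerm x) := by
  classical
  have hnd := arcs_nodup hl
  rw [pathVal_eq_sum, ← List.sum_toFinset _ hnd]
  have hinj : Set.InjOn Prod.fst ((arcs l).toFinset : Set (κ × κ)) := by
    rintro ⟨a, b⟩ ha ⟨c, d⟩ hb hab
    simp only [Finset.mem_coe, List.mem_toFinset] at ha hb
    simp only at hab
    subst hab
    rw [arcs_fst_inj hl ha hb]
  calc ∑ p ∈ (arcs l).toFinset, w p.1 p.2
      = ∑ p ∈ (arcs l).toFinset, w p.1 (l.formPerm p.1) := by
        apply Finset.sum_congr rfl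
        rintro ⟨a, b⟩ hp
        simp only [List.mem_toFinset] at hp
        simp only [formPerm_of_arc hl hp]
    _ = ∑ x ∈ (arcs l).toFinset.image Prod.fst, w x (l.formPerm x) := by
        rw [Finset.sum_image hinj]
    _ ≤ ∑ x ∈ Q, w x (l.formPerm x) := by
        apply Finset.sum_le_sum_of_subset
        intro x hx
        obtain ⟨p, hp, rfl⟩ := Finset.mem_image.mp hx
        exact hQ _ (mem_of_mem_arcs (List.mem_toFinset.mp hp)).1

/-- Local optimality: on a union `Q` of cycles of a maximum `A`, any order of `Q` has weight at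
most that of `A` on `Q`. -/
lemma local_opt {w : κ → κ → ℕ} {A : Perm κ} (hA : IsMaxDer w A) (Q : Finset κ)
    (hQ : ∀ x, x ∈ Q ↔ A x ∈ Q) {l : List κ} (hl : l.Nodup) (hlen : 2 ≤ l.length)
    (hlQ : ∀ x, x ∈ l ↔ x ∈ Q) : pathVal w l ≤ ∑ x ∈ Q, w x (A x) := by
  classical
  have hp : ∀ x, (x ∉ Q) ↔ (A x ∉ Q) := fun x => not_congr (hQ x)
  set C : Perm κ := Perm.ofSubtype (A.subtypePerm (p := fun x => x ∉ Q) (fun x => (hp x).symm)) with hC
  have hC1 : ∀ x, x ∉ Q → C x = A x := by
    intro x hx
    rw [hC, Perm.ofSubtype_apply_of_mem (p := fun x => x ∉ Q) _ hx]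
    simp
  have hC2 : ∀ x, x ∈ Q → C x = x := by
    intro x hx
    rw [hC]
    exact Perm.ofSubtype_apply_of_not_mem (p := fun x => x ∉ Q) _ (by simpa using hx)
  set B : Perm κ := l.formPerm * C with hB
  have hB1 : ∀ x, x ∈ Q → B x = l.formPerm x := by
    intro x hx
    rw [hB, Perm.mul_apply, hC2 x hx]
  have hB2 : ∀ x, x ∉ Q → B x = A x := by
    intro x hx
    rw [hB, Perm.mul_apply, hC1 x hx]
    exact List.formPerm_apply_of_notMem (fun h => (hp x).mp hx ((hlQ _).mp h))
  have hder : ∀ x, B x ≠ x := by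
    intro x
    by_cases hx : x ∈ Q
    · rw [hB1 x hx]
      have hxl := (hlQ x).mpr hx
      intro h
      have := (List.formPerm_apply_mem_eq_self_iff l hl x hxl).mp h
      omega
    · rw [hB2 x hx]
      exact hA.1 x
  have hle := hA.2 B hder
  unfold permVal at hle
  rw [← Finset.sum_add_sum_compl Q (fun x => w x (B x)),
    ← Finset.sum_add_sum_compl Q (fun x => w x (A x))] at hle
  have h1 : ∑ x ∈ Qᶜ, w x (B x) = ∑ x ∈ Qᶜ, w x (A x) := by
    apply Finset.sum_congr rfl
    intro x hx
    rw [hB2 x (by simpa using hx)]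
  have h2 : ∑ x ∈ Q, w x (B x) = ∑ x ∈ Q, w x (l.formPerm x) := by
    apply Finset.sum_congr rfl
    intro x hx
    rw [hB1 x hx]
  have h3 := pathVal_le_sum_formPerm w hl Q (fun x hx => (hlQ x).mp hx)
  omega

lemma pathVal_le_cons (w : κ → κ → ℕ) (x : κ) (l : List κ) :
    pathVal w l ≤ pathVal w (x :: l) := by
  cases l with
  | nil => simp [pathVal]
  | cons y l => rw [pathVal_cons_cons]; omega

open Classical in
/-- Weight of a list counting only the arcs inside `Q`. -/
noncomputable def pathIn (w : κ → κ → ℕ) (Q : Finset κ) (l : List κ) : ℕ :=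
  pathVal (fun a b => if a ∈ Q ∧ b ∈ Q then w a b else 0) l

lemma pathIn_le_filter (w : κ → κ → ℕ) (Q : Finset κ) (l : List κ) :
    pathIn w Q l ≤ pathVal w (l.filter (· ∈ Q)) := by
  classical
  unfold pathIn
  induction l with
  | nil => simp [pathVal]
  | cons x l ih =>
    cases l with
    | nil => simp [pathVal]
    | cons y l =>
      rw [pathVal_cons_cons]
      by_cases hx : x ∈ Q
      · by_cases hy : y ∈ Q
        · simp only [hx, hy, and_self, if_true]
          rw [List.filter_cons_of_pos (by simpa using hx)]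
          rw [List.filter_cons_of_pos (by simpa using hy)] at ih ⊢
          rw [pathVal_cons_cons]
          omega
        · simp only [hx, hy, and_false, if_false, zero_add]
          rw [List.filter_cons_of_pos (by simpa using hx)]
          rw [List.filter_cons_of_neg (by simpa using hy)] at ih ⊢
          exact ih.trans (pathVal_le_cons w x _)
      · simp only [hx, false_and, if_false, zero_add]
        rw [List.filter_cons_of_neg (by simpa using hx)]
        exact ih

/-- The classes of a permutation as finsets. -/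
noncomputable def cls (A : Perm κ) (u : κ) : Finset κ := univ.filter (fun x => crep A x = u)

lemma mem_cls {A : Perm κ} {u x : κ} : x ∈ cls A u ↔ crep A x = u := by simp [cls]

lemma cls_closed (A : Perm κ) (u x : κ) : x ∈ cls A u ↔ A x ∈ cls A u := by
  simp [mem_cls, crep_apply]

/-- The first candidate, per-cycle inequality. -/
lemma level1_local {w : κ → κ → ℕ} {A : Perm κ} (hA : IsMaxDer w A) {l : List κ} (hl : IsHam l)
    {K0 : Finset κ} (hK0 : IsLightest A univ (fun x => w x (A x)) K0) {y : κ} (hy0 : y ∈ K0) :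
    3 * w y (A y) + pathIn w (cls A (crep A y)) l
      ≤ 2 * ∑ x ∈ cls A (crep A y), w x (A x) := by
  classical
  set v : κ → ℕ := fun x => w x (A x) with hv
  set u := crep A y with hu
  have h2 : crep A y = u := rfl
  have h3 : ∀ z ∈ (univ : Finset κ), crep A z = u → v y ≤ v z := fun z hz hzu =>
    hK0.2.2 y hy0 z hz (crep_eq_iff.mp hzu)
  set Q := cls A u with hQ
  have hyQ : y ∈ Q := mem_cls.mpr h2
  set l' := l.filter (· ∈ Q) with hl'
  have hl'nd : l'.Nodup := hl.1.filter _
  have hl'mem : ∀ x, x ∈ l' ↔ x ∈ Q := by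
    intro x
    simp [hl', hl.2 x]
  have hcard : l'.length = Q.card := by
    rw [← List.toFinset_card_of_nodup hl'nd]
    congr 1
    ext x
    simp [hl'mem]
  have hle : pathIn w Q l ≤ pathVal w l' := pathIn_le_filter w Q l
  have hmin : ∀ z ∈ Q, v y ≤ v z := fun z hz => h3 z (Finset.mem_univ _) (mem_cls.mp hz)
  have hAy : A y ∈ Q := (cls_closed A u y).mp hyQ
  have hAne : A y ≠ y := hA.1 y
  have hcard2 : 2 ≤ Q.card := by
    have : ({y, A y} : Finset κ) ⊆ Q := by
      intro a ha
      rcases Finset.mem_insert.mp ha with rfl | ha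
      · exact hyQ
      · rw [Finset.mem_singleton.mp ha]; exact hAy
    have h := Finset.card_le_card this
    rwa [Finset.card_pair (Ne.symm hAne)] at h
  have hloc := local_opt hA Q (fun x => cls_closed A u x) hl'nd (by omega) hl'mem
  by_cases h3c : 3 ≤ Q.card
  · have : Q.card • v y ≤ ∑ x ∈ Q, v x := Finset.card_nsmul_le_sum Q v (v y) hmin
    have h' : 3 * v y ≤ ∑ x ∈ Q, v x := by
      rw [smul_eq_mul] at this
      have : 3 * v y ≤ Q.card * v y := Nat.mul_le_mul_right _ h3c
      omega
    show 3 * v y + _ ≤ 2 * ∑ x ∈ Q, v x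
    have hloc' : pathVal w l' ≤ ∑ x ∈ Q, v x := hloc
    omega
  · have hc2 : Q.card = 2 := by omega
    have hlen2 : l'.length = 2 := by omega
    obtain ⟨a, b, hab⟩ := List.length_eq_two.mp hlen2
    have ha : a ∈ Q := (hl'mem a).mp (by simp [hab])
    have hb : b ∈ Q := (hl'mem b).mp (by simp [hab])
    have hne : a ≠ b := by
      have := hl'nd
      rw [hab] at this
      simpa using this
    have hQeq : Q = {a, b} := by
      symm
      apply Finset.eq_of_subset_of_card_le
      · intro x hx
        rcases Finset.mem_insert.mp hx with rfl | hx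
        · exact ha
        · rw [Finset.mem_singleton.mp hx]; exact hb
      · rw [Finset.card_pair hne, hc2]
    have hAa : A a = b := by
      have h4 : A a ∈ Q := (cls_closed A u a).mp ha
      rw [hQeq] at h4
      rcases Finset.mem_insert.mp h4 with h4 | h4
      · exact absurd h4 (hA.1 a)
      · exact Finset.mem_singleton.mp h4
    have hpath : pathVal w l' = v a := by
      rw [hab]
      simp [pathVal, hv, hAa]
    have hsum : ∑ x ∈ Q, v x = v a + v b := by
      rw [hQeq, Finset.sum_pair hne]
    have hya := hmin a ha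
    have hyb := hmin b hb
    have hcase : y = a ∨ y = b := by
      rw [hQeq] at hyQ
      simpa using hyQ
    show 3 * v y + _ ≤ 2 * ∑ x ∈ Q, v x
    rw [hsum]
    rw [hpath] at hle
    rcases hcase with hc | hc <;> rw [hc] at hya hyb ⊢ <;> omega


lemma sum_pathVal (R : Finset κ) (f : κ → κ → κ → ℕ) (l : List κ) :
    ∑ u ∈ R, pathVal (f u) l = pathVal (fun a b => ∑ u ∈ R, f u a b) l := by
  induction l with
  | nil => simp [pathVal]
  | cons x l ih =>
    cases l with
    | nil => simp [pathVal]
    | cons y l =>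
      simp only [pathVal_cons_cons, Finset.sum_add_distrib, ih]

/-- The weight of `l` on the arcs inside the cycles of `A`. -/
noncomputable def innerVal (w : κ → κ → ℕ) (A : Perm κ) (l : List κ) : ℕ :=
  pathVal (fun a b => if crep A a = crep A b then w a b else 0) l

/-- The weight of `l` on the arcs between different cycles of `A`. -/
noncomputable def crossVal (w : κ → κ → ℕ) (A : Perm κ) (l : List κ) : ℕ :=
  pathVal (fun a b => if crep A a = crep A b then 0 else w a b) l

lemma inner_add_cross (w : κ → κ → ℕ) (A : Perm κ) (l : List κ) :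
    innerVal w A l + crossVal w A l = pathVal w l := by
  unfold innerVal crossVal
  induction l with
  | nil => simp [pathVal]
  | cons x l ih =>
    cases l with
    | nil => simp [pathVal]
    | cons y l =>
      simp only [pathVal_cons_cons]
      have : (if crep A x = crep A y then w x y else 0) +
          (if crep A x = crep A y then 0 else w x y) = w x y := by
        split_ifs <;> simp
      omega

lemma sum_pathIn (w : κ → κ → ℕ) (A : Perm κ) (l : List κ) {v : κ → ℕ} {K0 : Finset κ}
    (hK0 : IsLightest A univ v K0) :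
    ∑ y ∈ K0, pathIn w (cls A (crep A y)) l = innerVal w A l := by
  classical
  unfold pathIn innerVal
  rw [sum_pathVal (f := fun y a b => if a ∈ cls A (crep A y) ∧ b ∈ cls A (crep A y) then w a b
    else 0)]
  congr 1
  funext a b
  simp only [mem_cls]
  by_cases h : crep A a = crep A b
  · rw [if_pos h]
    obtain ⟨y0, ⟨hy0, hay0⟩, huniq⟩ := hK0.2.1 a (Finset.mem_univ _)
    rw [Finset.sum_eq_single_of_mem y0 hy0]
    · rw [if_pos]
      exact ⟨crep_eq_iff.mpr hay0, by rw [← h]; exact crep_eq_iff.mpr hay0⟩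
    · intro z hz hzy
      rw [if_neg]
      rintro ⟨h1, _⟩
      exact hzy (huniq z ⟨hz, crep_eq_iff.mp h1⟩)
  · rw [if_neg h]
    apply Finset.sum_eq_zero
    intro u _
    rw [if_neg]
    rintro ⟨h1, h2⟩
    exact h (h1.trans h2.symm)

/-- The value of the arc `x → A x`. -/
def arcWt (w : κ → κ → ℕ) (A : Perm κ) (x : κ) : ℕ := w x (A x)

lemma level1 {w : κ → κ → ℕ} {A : Perm κ} (hA : IsMaxDer w A) {l : List κ} (hl : IsHam l)
    {K0 : Finset κ} (hK0 : IsLightest A univ (arcWt w A) K0) :
    permVal w A + innerVal w A l ≤ 3 * forestVal w A K0 := by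
  classical
  have h1 : ∑ y ∈ K0, (3 * arcWt w A y + pathIn w (cls A (crep A y)) l)
      ≤ ∑ y ∈ K0, 2 * ∑ x ∈ cls A (crep A y), arcWt w A x := by
    apply Finset.sum_le_sum
    intro y hy
    exact level1_local hA hl hK0 hy
  rw [Finset.sum_add_distrib, sum_pathIn w A l hK0, ← Finset.mul_sum, ← Finset.mul_sum] at h1
  have h2 : ∑ y ∈ K0, ∑ x ∈ cls A (crep A y), arcWt w A x = permVal w A := by
    have := sum_fiber_lightest hK0 (arcWt w A)
    unfold permVal
    exact this
  rw [h2] at h1
  have h3 : permVal w A = ∑ x ∈ K0, arcWt w A x + forestVal w A K0 := by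
    unfold permVal forestVal
    rw [← Finset.sum_add_sum_compl K0 (fun x => w x (A x))]
    rfl
  omega

lemma pow_eq_of_notMem {A σ : Perm κ} {K : Finset κ} (hσ : ∀ x, x ∉ K → σ x = A x) (z : κ) (n : ℕ)
    (h : ∀ j < n, (A ^ j) z ∉ K) : (σ ^ n) z = (A ^ n) z := by
  induction n with
  | zero => simp
  | succ n ih =>
    have ih' := ih (fun j hj => h j (by omega))
    rw [pow_succ', pow_succ', Perm.mul_apply, Perm.mul_apply, ih', hσ _ (h n (by omega))]

lemma hits_ext {A σ : Perm κ} {K : Finset κ} (hA : Hits A K) (hσ : ∀ x, x ∉ K → σ x = A x) :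
    Hits σ K := by
  classical
  intro x
  have hex := hA x
  refine ⟨Nat.find hex, ?_⟩
  rw [pow_eq_of_notMem hσ x _ (fun j hj => Nat.find_min hex hj)]
  exact Nat.find_spec hex

open Classical in
/-- Second level weight: only arcs between different cycles of `A` count. -/
noncomputable def w2 (w : κ → κ → ℕ) (A : Perm κ) (x y : κ) : ℕ :=
  if A.SameCycle x y then 0 else w x y

/-- The second level objective. -/
noncomputable def extVal (w : κ → κ → ℕ) (A : Perm κ) (K : Finset κ) (σ : Perm κ) : ℕ :=
  ∑ x ∈ K, w2 w A x (σ x)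

/-- `σ` solves the second level assignment problem: among the permutations agreeing with `A` off
`K` it has largest second level weight. -/
def IsMaxExt (w : κ → κ → ℕ) (A : Perm κ) (K : Finset κ) (σ : Perm κ) : Prop :=
  (∀ x, x ∉ K → σ x = A x) ∧
    ∀ τ : Perm κ, (∀ x, x ∉ K → τ x = A x) → extVal w A K τ ≤ extVal w A K σ

lemma w2_eq_zero_of_single (w : κ → κ → ℕ) {A σ : Perm κ} {K : Finset κ} (hA : Hits A K)
    (hσ : ∀ x, x ∉ K → σ x = A x) (y : κ)
    (hs : ∀ z ∈ K, crep σ z = crep σ y → z = y) : w2 w A y (σ y) = 0 := by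
  classical
  set z := σ y with hz
  have hex := hA z
  set n := Nat.find hex with hn
  have hmin : ∀ j < n, (A ^ j) z ∉ K := fun j hj => Nat.find_min hex hj
  have hmem : (A ^ n) z ∈ K := Nat.find_spec hex
  have heq := pow_eq_of_notMem hσ z n hmin
  have hy : (A ^ n) z = y := by
    apply hs _ hmem
    rw [← heq, crep_pow, hz, crep_apply]
  unfold w2
  rw [if_pos]
  apply crep_eq_iff.mp
  rw [← hy, crep_pow]

lemma exists_perm_extending (D : Finset κ) (g : κ → κ) (hg : Set.InjOn g D) :
    ∃ τ : Perm κ, ∀ x ∈ D, τ x = g x := by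
  classical
  obtain ⟨e, he⟩ := Finset.exists_equiv_extend_of_card_eq (α := κ) (t := (univ : Finset κ))
    (by simp) (s := D) (f := g) (Finset.subset_univ _) hg
  refine ⟨e.trans (Equiv.subtypeUnivEquiv (fun x => Finset.mem_univ x)), ?_⟩
  intro x hx
  simpa using he x hx

/-- The competitor at the second level. -/
lemma exists_competitor (A : Perm κ) (K : Finset κ) (S : Finset (κ × κ))
    (hS : ∀ p ∈ S, p.1 ∈ K ∧ A.symm p.2 ∈ K)
    (hfst : ∀ p ∈ S, ∀ q ∈ S, p.1 = q.1 → p = q)
    (hsnd : ∀ p ∈ S, ∀ q ∈ S, p.2 = q.2 → p = q) :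
    ∃ τ : Perm κ, (∀ x, x ∉ K → τ x = A x) ∧ ∀ p ∈ S, τ p.1 = p.2 := by
  classical
  let g : κ → κ := fun x => if h : ∃ p ∈ S, p.1 = x then h.choose.2 else A x
  have hg1 : ∀ p ∈ S, g p.1 = p.2 := by
    intro p hp
    have h : ∃ q ∈ S, q.1 = p.1 := ⟨p, hp, rfl⟩
    have hq := h.choose_spec
    simp only [g]
    rw [dif_pos h]
    rw [hfst _ hq.1 p hp hq.2]
  have hg2 : ∀ x, x ∉ K → g x = A x := by
    intro x hx
    simp only [g]
    rw [dif_neg]
    rintro ⟨p, hp, rfl⟩
    exact hx (hS p hp).1
  obtain ⟨τ, hτ⟩ := exists_perm_extending (Kᶜ ∪ S.image Prod.fst) g (by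
    intro a ha b hb hab
    simp only [Finset.coe_union, Set.mem_union, Finset.mem_coe, Finset.mem_compl,
      Finset.mem_image] at ha hb
    rcases ha with ha | ⟨p, hp, rfl⟩ <;> rcases hb with hb | ⟨q, hq, rfl⟩
    · rw [hg2 a ha, hg2 b hb] at hab
      exact A.injective hab
    · exfalso
      rw [hg2 a ha, hg1 q hq] at hab
      have := (hS q hq).2
      rw [← hab] at this
      simp at this
      exact absurd this ha
    · exfalso
      rw [hg2 b hb, hg1 p hp] at hab
      have := (hS p hp).2
      rw [hab] at this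
      simp at this
      exact hb this
    · rw [hg1 p hp, hg1 q hq] at hab
      rw [hsnd p hp q hq hab])
  refine ⟨τ, ?_, ?_⟩
  · intro x hx
    rw [hτ x (Finset.mem_union_left _ (by simpa using hx)), hg2 x hx]
  · intro p hp
    rw [hτ p.1 (Finset.mem_union_right _ (Finset.mem_image_of_mem _ hp)), hg1 p hp]

lemma level2 (w : κ → κ → ℕ) {A σ : Perm κ} {K K' : Finset κ} (hA : Hits A K)
    (hσ : IsMaxExt w A K σ) (hK' : IsLightest σ K (fun x => w2 w A x (σ x)) K')
    (S : Finset (κ × κ))
    (hS : ∀ p ∈ S, p.1 ∈ K ∧ A.symm p.2 ∈ K ∧ crep A p.1 ≠ crep A p.2)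
    (hfst : ∀ p ∈ S, ∀ q ∈ S, p.1 = q.1 → p = q)
    (hsnd : ∀ p ∈ S, ∀ q ∈ S, p.2 = q.2 → p = q) :
    2 * forestVal w A K + ∑ p ∈ S, w p.1 p.2 ≤ 2 * forestVal w σ K' := by
  classical
  obtain ⟨τ, hτ1, hτ2⟩ := exists_competitor A K S (fun p hp => ⟨(hS p hp).1, (hS p hp).2.1⟩)
    hfst hsnd
  -- the competitor is good
  have hτval : ∑ p ∈ S, w p.1 p.2 ≤ extVal w A K τ := by
    have hinj : Set.InjOn Prod.fst (S : Set (κ × κ)) := by
      intro p hp q hq h
      exact hfst p hp q hq h
    calc ∑ p ∈ S, w p.1 p.2 = ∑ p ∈ S, w2 w A p.1 (τ p.1) := by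
          apply Finset.sum_congr rfl
          intro p hp
          rw [hτ2 p hp]
          unfold w2
          rw [if_neg (fun h => (hS p hp).2.2 (crep_eq_iff.mpr h))]
      _ = ∑ x ∈ S.image Prod.fst, w2 w A x (τ x) := by
          rw [Finset.sum_image hinj]
      _ ≤ extVal w A K τ := by
          unfold extVal
          apply Finset.sum_le_sum_of_subset
          intro x hx
          obtain ⟨p, hp, rfl⟩ := Finset.mem_image.mp hx
          exact (hS p hp).1
  have hmax := hσ.2 τ hτ1
  -- cutting the lightest arcs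
  set v : κ → ℕ := fun x => w2 w A x (σ x) with hv
  have hcut := two_mul_sum_lightest_le hK' (fun y _ hs =>
    w2_eq_zero_of_single w hA hσ.1 y hs)
  have hsub : K' ⊆ K := hK'.1
  have h1 : forestVal w σ K'
      = forestVal w A K + ∑ x ∈ K \ K', w x (σ x) := by
    unfold forestVal
    have hdec : K'ᶜ = Kᶜ ∪ (K \ K') := by
      ext x
      simp only [Finset.mem_compl, Finset.mem_union, Finset.mem_sdiff]
      have := @hsub x
      tauto
    rw [hdec, Finset.sum_union (by
      rw [Finset.disjoint_left]
      intro x hx hx'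
      exact (Finset.mem_compl.mp hx) (Finset.mem_sdiff.mp hx').1)]
    congr 1
    apply Finset.sum_congr rfl
    intro x hx
    rw [hσ.1 x (by simpa using hx)]
  have h2 : ∑ x ∈ K \ K', v x ≤ ∑ x ∈ K \ K', w x (σ x) := by
    apply Finset.sum_le_sum
    intro x _
    simp only [hv, w2]
    split_ifs <;> simp
  have h3 : ∑ x ∈ K \ K', v x + ∑ x ∈ K', v x = extVal w A K σ :=
    Finset.sum_sdiff hsub
  have hcut' : 2 * ∑ y ∈ K', v y ≤ extVal w A K σ := hcut
  omega

/-- `rep` chooses a node on every cycle of `A`. -/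
def IsRep (A : Perm κ) (rep : κ → κ) : Prop :=
  (∀ x, A.SameCycle x (rep x)) ∧ ∀ x y, A.SameCycle x y → rep x = rep y

lemma crep_isRep (A : Perm κ) : IsRep A (crep A) :=
  ⟨crep_sameCycle A, fun _ _ h => crep_eq_iff.mpr h⟩

lemma IsRep.eq_iff {A : Perm κ} {rep : κ → κ} (h : IsRep A rep) {x y : κ} :
    rep x = rep y ↔ crep A x = crep A y := by
  rw [crep_eq_iff]
  constructor
  · intro e
    have h1 := h.1 x
    have h2 := h.1 y
    rw [← e] at h2
    exact h1.trans h2.symm
  · exact h.2 x y

/-- The cut set of the first level attached to a bit vector `r` on the cycles of `A`, with `rep`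
choosing a node on each cycle: if `r (rep x) = true` only the representative of the cycle of `x` is
cut, if `r (rep x) = false` all nodes of the cycle except the representative are cut. -/
def cutSet (rep : κ → κ) (r : κ → Bool) : Finset κ :=
  univ.filter (fun x => r (rep x) = decide (x = rep x))

lemma mem_cutSet {rep : κ → κ} {r : κ → Bool} {x : κ} :
    x ∈ cutSet rep r ↔ r (rep x) = decide (x = rep x) := by
  simp [cutSet]

lemma hits_cutSet {A : Perm κ} (hA : ∀ x, A x ≠ x) {rep : κ → κ} (hrep : IsRep A rep)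
    (r : κ → Bool) : Hits A (cutSet rep r) := by
  intro x
  have hx := hrep.1 x
  have hr0 : rep (rep x) = rep x := (hrep.2 _ _ hx).symm
  by_cases hr : r (rep x) = true
  · obtain ⟨n, hn⟩ := exists_pow_of_crep_eq (σ := A) (x := x) (y := rep x) (crep_eq_iff.mpr hx)
    refine ⟨n, ?_⟩
    rw [hn, mem_cutSet, hr0, hr]
    simp
  · have hA1 : A.SameCycle x (A (rep x)) := hx.trans (Perm.sameCycle_apply_right.mpr
      (Perm.SameCycle.refl A (rep x)))
    obtain ⟨n, hn⟩ := exists_pow_of_crep_eq (σ := A) (x := x) (y := A (rep x))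
      (crep_eq_iff.mpr hA1)
    refine ⟨n, ?_⟩
    have hr1 : rep (A (rep x)) = rep x := (hrep.2 _ _ hA1).symm
    rw [hn, mem_cutSet, hr1]
    have : A (rep x) ≠ rep x := hA _
    simp [this, Bool.eq_false_iff.mpr hr]

/-- Main counting and averaging step. -/
theorem atsp_bound {w : κ → κ → ℕ} {A : Perm κ} (hA : IsMaxDer w A) {l : List κ} (hl : IsHam l)
    {rep : κ → κ} (hrep : IsRep A rep)
    {K0 : Finset κ} (hK0 : IsLightest A univ (arcWt w A) K0)
    {Ω : Type*} [Fintype Ω] [Nonempty Ω] (r : Ω → κ → Bool)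
    (hr1 : ∀ u b, 2 * (univ.filter (fun a => r a u = b)).card = Fintype.card Ω)
    (hr2 : ∀ u u', u ≠ u' → ∀ b b',
      4 * (univ.filter (fun a => r a u = b ∧ r a u' = b')).card = Fintype.card Ω)
    (σ : Ω → Perm κ) (hσ : ∀ a, IsMaxExt w A (cutSet rep (r a)) (σ a))
    (K2 : Ω → Finset κ)
    (hK2 : ∀ a, IsLightest (σ a) (cutSet rep (r a)) (fun x => w2 w A x (σ a x)) (K2 a)) :
    6 * pathVal w l ≤ 11 * forestVal w A K0 ∨
      ∃ a, 6 * pathVal w l ≤ 11 * forestVal w (σ a) (K2 a) := by
  classical
  by_cases hlen : 2 ≤ l.length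
  swap
  · left
    have : pathVal w l = 0 := by
      match l, hlen with
      | [], _ => rfl
      | [_], _ => rfl
      | _ :: _ :: _, h => simp at h
    omega
  -- W ≤ permVal
  have hWP : pathVal w l ≤ permVal w A := by
    have := local_opt hA univ (by simp) hl.1 hlen (by simpa using hl.2)
    simpa [permVal] using this
  have h1 := level1 hA hl hK0
  set N := Fintype.card Ω with hN
  have hNpos : 0 < N := Fintype.card_pos
  set P := permVal w A with hP
  -- the sets S a
  let K : Ω → Finset κ := fun a => cutSet rep (r a)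
  let S : Ω → Finset (κ × κ) := fun a => (arcs l).toFinset.filter
    (fun p => p.1 ∈ K a ∧ A.symm p.2 ∈ K a ∧ crep A p.1 ≠ crep A p.2)
  have hlev : ∀ a, 2 * forestVal w A (K a) + ∑ p ∈ S a, w p.1 p.2
      ≤ 2 * forestVal w (σ a) (K2 a) := by
    intro a
    apply level2 w (hits_cutSet hA.1 hrep _) (hσ a) (hK2 a)
    · intro p hp
      exact (Finset.mem_filter.mp hp).2
    · rintro ⟨x, y⟩ hp ⟨x', y'⟩ hq h
      have hp' := List.mem_toFinset.mp (Finset.mem_filter.mp hp).1
      have hq' := List.mem_toFinset.mp (Finset.mem_filter.mp hq).1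
      simp only at h
      subst h
      rw [arcs_fst_inj hl.1 hp' hq']
    · rintro ⟨x, y⟩ hp ⟨x', y'⟩ hq h
      have hp' := List.mem_toFinset.mp (Finset.mem_filter.mp hp).1
      have hq' := List.mem_toFinset.mp (Finset.mem_filter.mp hq).1
      simp only at h
      subst h
      rw [arcs_snd_inj hl.1 hp' hq']
  -- first count
  have hcount1 : 2 * ∑ a, forestVal w A (K a) = N * P := by
    have : ∑ a, forestVal w A (K a)
        = ∑ x, (univ.filter (fun a => r a (rep x) = !decide (x = rep x))).card * w x (A x) := by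
      unfold forestVal
      have h2 : ∀ a, ∑ x ∈ (K a)ᶜ, w x (A x)
          = ∑ x, if r a (rep x) = !decide (x = rep x) then w x (A x) else 0 := by
        intro a
        rw [← Finset.sum_filter]
        apply Finset.sum_congr _ (fun _ _ => rfl)
        ext x
        simp only [K, Finset.mem_compl, mem_cutSet, Finset.mem_filter, Finset.mem_univ, true_and]
        cases r a (rep x) <;> cases (decide (x = rep x)) <;> simp
      simp only [h2]
      rw [Finset.sum_comm]
      apply Finset.sum_congr rfl
      intro x _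
      rw [← Finset.sum_filter, Finset.sum_const, smul_eq_mul]
    rw [this, Finset.mul_sum, hP]
    unfold permVal
    rw [Finset.mul_sum]
    apply Finset.sum_congr rfl
    intro x _
    rw [← mul_assoc, hr1]
  -- second count
  have hcross : crossVal w A l = ∑ p ∈ (arcs l).toFinset, if crep A p.1 = crep A p.2 then 0 else w p.1 p.2 := by
    unfold crossVal
    rw [pathVal_eq_sum, ← List.sum_toFinset _ (arcs_nodup hl.1)]
  have hcount2 : 4 * ∑ a, ∑ p ∈ S a, w p.1 p.2 = N * crossVal w A l := by
    have h2 : ∀ a, ∑ p ∈ S a, w p.1 p.2 = ∑ p ∈ (arcs l).toFinset,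
        if p.1 ∈ K a ∧ A.symm p.2 ∈ K a ∧ crep A p.1 ≠ crep A p.2 then w p.1 p.2 else 0 := by
      intro a
      simp only [S]
      rw [Finset.sum_filter]
    simp only [h2]
    rw [Finset.sum_comm, hcross, Finset.mul_sum, Finset.mul_sum]
    apply Finset.sum_congr rfl
    intro p _
    by_cases hc : crep A p.1 = crep A p.2
    · rw [if_pos hc]
      simp [hc]
    · rw [if_neg hc]
      have hne : rep p.1 ≠ rep (A.symm p.2) := by
        intro e
        rw [hrep.eq_iff, crep_symm_apply] at e
        exact hc e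
      have h3 := hr2 _ _ hne (decide (p.1 = rep p.1))
        (decide (A.symm p.2 = rep (A.symm p.2)))
      have h4 : ∑ a, (if p.1 ∈ K a ∧ A.symm p.2 ∈ K a ∧ crep A p.1 ≠ crep A p.2 then
            w p.1 p.2 else 0)
          = (univ.filter (fun a => r a (rep p.1) = decide (p.1 = rep p.1) ∧
              r a (rep (A.symm p.2)) = decide (A.symm p.2 = rep (A.symm p.2)))).card
            * w p.1 p.2 := by
        rw [← smul_eq_mul, ← Finset.sum_const, Finset.sum_filter]
        apply Finset.sum_congr rfl
        intro a _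
        simp only [K, mem_cutSet]
        by_cases h5 : r a (rep p.1) = decide (p.1 = rep p.1) ∧
            r a (rep (A.symm p.2)) = decide (A.symm p.2 = rep (A.symm p.2))
        · rw [if_pos h5, if_pos ⟨h5.1, h5.2, fun h => hc h⟩]
        · rw [if_neg h5, if_neg]
          rintro ⟨h6, h7, _⟩
          exact h5 ⟨h6, h7⟩
      rw [h4, ← mul_assoc, h3]
  -- averaging
  have havg : ∃ a, 4 * P + crossVal w A l
      ≤ 8 * forestVal w (σ a) (K2 a) := by
    by_contra hcon
    push Not at hcon
    have hlt : ∑ a : Ω, 8 * forestVal w (σ a) (K2 a)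
        < ∑ _a : Ω, (4 * P + crossVal w A l) :=
      Finset.sum_lt_sum_of_nonempty Finset.univ_nonempty (fun a _ => hcon a)
    rw [Finset.sum_const, Finset.card_univ, smul_eq_mul, ← Finset.mul_sum, ← hN] at hlt
    have hsum : ∑ a, (2 * forestVal w A (K a) + ∑ p ∈ S a, w p.1 p.2)
        ≤ ∑ a, 2 * forestVal w (σ a) (K2 a) :=
      Finset.sum_le_sum (fun a _ => hlev a)
    rw [Finset.sum_add_distrib, ← Finset.mul_sum, ← Finset.mul_sum] at hsum
    have e : N * (4 * P + crossVal w A l) = 4 * (N * P) + N * crossVal w A l := by ring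
    rw [e] at hlt
    omega
  obtain ⟨a, ha⟩ := havg
  have hsplit := inner_add_cross w A l
  by_cases hc : forestVal w (σ a) (K2 a) ≤ forestVal w A K0
  · left
    omega
  · right
    refine ⟨a, ?_⟩
    omega

end levels


section family

variable {d : ℕ}

/-- A pairwise independent family of bits on `κ`, from an injective binary code `c`. -/
def hashVal (c : κ → Fin d → ZMod 2) (ω : ZMod 2 × (Fin d → ZMod 2)) (u : κ) : ZMod 2 :=
  ω.1 + ∑ j, ω.2 j * c u j

/-- The bit attached to the seed `ω` and the element `u`. -/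
def hashBit (c : κ → Fin d → ZMod 2) (ω : ZMod 2 × (Fin d → ZMod 2)) (u : κ) : Bool :=
  decide (hashVal c ω u = 1)

lemma zmod2_cases (x : ZMod 2) : x = 0 ∨ x = 1 := by
  revert x; decide

lemma hashVal_add (c : κ → Fin d → ZMod 2) (ω t : ZMod 2 × (Fin d → ZMod 2)) (u : κ) :
    hashVal c (ω + t) u = hashVal c ω u + hashVal c t u := by
  unfold hashVal
  simp only [Prod.fst_add, Prod.snd_add, Pi.add_apply, add_mul, Finset.sum_add_distrib]
  ring

lemma hashVal_one (c : κ → Fin d → ZMod 2) (u : κ) : hashVal c ((1, 0) : ZMod 2 × (Fin d → ZMod 2)) u = 1 := by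
  simp [hashVal]

lemma hashVal_single (c : κ → Fin d → ZMod 2) (j : Fin d) (u : κ) :
    hashVal c ((0, Pi.single j 1) : ZMod 2 × (Fin d → ZMod 2)) u = c u j := by
  simp [hashVal, Pi.single_apply, ite_mul]

lemma card_pair_transl (c : κ → Fin d → ZMod 2) (u u' : κ) (t : ZMod 2 × (Fin d → ZMod 2))
    (b b' : ZMod 2) :
    (univ.filter (fun ω => hashVal c ω u = b ∧ hashVal c ω u' = b')).card =
      (univ.filter (fun ω => hashVal c ω u = b + hashVal c t u ∧
        hashVal c ω u' = b' + hashVal c t u')).card := by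
  apply Finset.card_equiv (Equiv.addRight t)
  intro ω
  simp only [Finset.mem_filter, Finset.mem_univ, true_and, Equiv.coe_addRight, hashVal_add,
    add_left_inj]

lemma card_single_transl (c : κ → Fin d → ZMod 2) (u : κ) (t : ZMod 2 × (Fin d → ZMod 2))
    (b : ZMod 2) :
    (univ.filter (fun ω => hashVal c ω u = b)).card =
      (univ.filter (fun ω => hashVal c ω u = b + hashVal c t u)).card := by
  apply Finset.card_equiv (Equiv.addRight t)
  intro ω
  simp only [Finset.mem_filter, Finset.mem_univ, true_and, Equiv.coe_addRight, hashVal_add,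
    add_left_inj]

lemma hashVal_count1 (c : κ → Fin d → ZMod 2) (u : κ) (b : ZMod 2) :
    2 * (univ.filter (fun ω => hashVal c ω u = b)).card =
      Fintype.card (ZMod 2 × (Fin d → ZMod 2)) := by
  have h1 := card_single_transl c u ((1, 0) : ZMod 2 × (Fin d → ZMod 2)) b
  rw [hashVal_one] at h1
  have hb : (b + 1 + 1 : ZMod 2) = b := by
    rcases zmod2_cases b with rfl | rfl <;> decide
  have hsum : (univ.filter (fun ω : ZMod 2 × (Fin d → ZMod 2) => hashVal c ω u = b)).card +
      (univ.filter (fun ω : ZMod 2 × (Fin d → ZMod 2) => hashVal c ω u = b + 1)).card =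
      Fintype.card (ZMod 2 × (Fin d → ZMod 2)) := by
    rw [← Finset.card_union_of_disjoint, ← Finset.card_univ]
    · congr 1
      ext ω
      simp only [Finset.mem_union, Finset.mem_filter, Finset.mem_univ, true_and, iff_true]
      rcases zmod2_cases b with rfl | rfl <;> rcases zmod2_cases (hashVal c ω u) with h | h <;>
        simp [h] <;> decide
    · rw [Finset.disjoint_left]
      intro ω h1 h2
      have h1' := (Finset.mem_filter.mp h1).2
      have h2' := (Finset.mem_filter.mp h2).2
      rw [h1'] at h2'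
      rcases zmod2_cases b with rfl | rfl <;> exact absurd h2' (by decide)
  omega

lemma hashVal_count2 (c : κ → Fin d → ZMod 2) (hc : Function.Injective c) {u u' : κ} (hu : u ≠ u')
    (b b' : ZMod 2) :
    4 * (univ.filter (fun ω => hashVal c ω u = b ∧ hashVal c ω u' = b')).card =
      Fintype.card (ZMod 2 × (Fin d → ZMod 2)) := by
  set N : ZMod 2 → ZMod 2 → ℕ := fun b b' =>
    (univ.filter (fun ω : ZMod 2 × (Fin d → ZMod 2) => hashVal c ω u = b ∧ hashVal c ω u' = b')).card
    with hN
  have h0 : ∀ b b', N b b' = N (b + 1) (b' + 1) := by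
    intro b b'
    have := card_pair_transl c u u' ((1, 0) : ZMod 2 × (Fin d → ZMod 2)) b b'
    simpa only [hashVal_one] using this
  obtain ⟨j, hj⟩ : ∃ j, c u j ≠ c u' j := by
    by_contra hcon
    push Not at hcon
    exact hu (hc (funext hcon))
  have h1 : ∀ b b', N b b' = N (b + c u j) (b' + c u' j) := by
    intro b b'
    have := card_pair_transl c u u' ((0, Pi.single j 1) : ZMod 2 × (Fin d → ZMod 2)) b b'
    simpa only [hashVal_single] using this
  have h11 : (1 + 1 : ZMod 2) = 0 := by decide
  have h01 : (0 + 1 : ZMod 2) = 1 := by decide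
  have h10 : (1 + 0 : ZMod 2) = 1 := by decide
  have h00 : (0 + 0 : ZMod 2) = 0 := by decide
  have hall : N 0 0 = N 0 1 ∧ N 0 0 = N 1 0 ∧ N 0 0 = N 1 1 := by
    have a1 := h0 0 0
    have a2 := h0 0 1
    have a3 := h0 1 0
    rw [h01] at a1 a2 a3
    rw [h11] at a2
    rw [h11] at a3
    rcases zmod2_cases (c u j) with e | e <;> rcases zmod2_cases (c u' j) with e' | e'
    · exact absurd (e.trans e'.symm) hj
    · have a4 := h1 0 0
      have a5 := h1 1 0
      rw [e, e'] at a4 a5
      simp only [h00, h01, h10, add_zero, zero_add] at a4 a5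
      omega
    · have a4 := h1 0 0
      have a5 := h1 0 1
      rw [e, e'] at a4 a5
      simp only [h00, h01, h10, add_zero, zero_add] at a4 a5
      omega
    · exact absurd (e.trans e'.symm) hj
  have hsum : N 0 0 + N 0 1 + N 1 0 + N 1 1 = Fintype.card (ZMod 2 × (Fin d → ZMod 2)) := by
    simp only [hN, Finset.card_filter]
    rw [← Finset.sum_add_distrib, ← Finset.sum_add_distrib, ← Finset.sum_add_distrib,
      ← Finset.card_univ, Finset.card_eq_sum_ones]
    apply Finset.sum_congr rfl
    intro ω _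
    rcases zmod2_cases (hashVal c ω u) with e | e <;> rcases zmod2_cases (hashVal c ω u') with e' | e' <;>
      simp [e, e']
  have : 4 * N b b' = Fintype.card (ZMod 2 × (Fin d → ZMod 2)) := by
    rcases zmod2_cases b with rfl | rfl <;> rcases zmod2_cases b' with rfl | rfl <;> omega
  exact this

lemma hashBit_eq_iff (c : κ → Fin d → ZMod 2) (ω : ZMod 2 × (Fin d → ZMod 2)) (u : κ) (b : Bool) :
    hashBit c ω u = b ↔ hashVal c ω u = (if b then 1 else 0) := by
  unfold hashBit
  cases b
  · rcases zmod2_cases (hashVal c ω u) with e | e <;> simp [e]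
  · simp

lemma hashBit_count1 (c : κ → Fin d → ZMod 2) (u : κ) (b : Bool) :
    2 * (univ.filter (fun ω => hashBit c ω u = b)).card =
      Fintype.card (ZMod 2 × (Fin d → ZMod 2)) := by
  simp only [hashBit_eq_iff]
  exact hashVal_count1 c u _

lemma hashBit_count2 (c : κ → Fin d → ZMod 2) (hc : Function.Injective c) {u u' : κ} (hu : u ≠ u')
    (b b' : Bool) :
    4 * (univ.filter (fun ω => hashBit c ω u = b ∧ hashBit c ω u' = b')).card =
      Fintype.card (ZMod 2 × (Fin d → ZMod 2)) := by
  simp only [hashBit_eq_iff]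
  exact hashVal_count2 c hc hu _ _

end family

section algorithm

variable [Fintype κ] [DecidableEq κ]

open Classical in
/-- A permutation maximising `f` among those satisfying `P` (the identity if there is none). In
the algorithm this is always an assignment problem. -/
noncomputable def maxPerm (P : Perm κ → Prop) (f : Perm κ → ℕ) : Perm κ :=
  if h : (univ.filter P).Nonempty then (Finset.exists_max_image _ f h).choose else 1

lemma maxPerm_spec {P : Perm κ → Prop} (f : Perm κ → ℕ) (h : ∃ σ, P σ) :
    P (maxPerm P f) ∧ ∀ τ, P τ → f τ ≤ f (maxPerm P f) := by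
  classical
  obtain ⟨σ, hσ⟩ := h
  have hne : (univ.filter P).Nonempty := ⟨σ, by simp [hσ]⟩
  unfold maxPerm
  rw [dif_pos hne]
  have := (Finset.exists_max_image _ f hne).choose_spec
  exact ⟨(Finset.mem_filter.mp this.1).2, fun τ hτ => this.2 τ (by simp [hτ])⟩

/-- Number of binary digits of the code. -/
noncomputable def codeLen (κ : Type*) [Fintype κ] : ℕ := Nat.clog 2 (Fintype.card κ)

/-- The seeds of the pairwise independent family. -/
abbrev Seed (κ : Type*) [Fintype κ] : Type := ZMod 2 × (Fin (codeLen κ) → ZMod 2)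

lemma exists_code : ∃ c : κ → Fin (codeLen κ) → ZMod 2, Function.Injective c := by
  have h : Fintype.card κ ≤ Fintype.card (Fin (codeLen κ) → ZMod 2) := by
    simp only [Fintype.card_pi, Finset.prod_const, ZMod.card, Finset.card_univ, Fintype.card_fin]
    exact Nat.le_pow_clog (by norm_num) _
  obtain ⟨f⟩ := Function.Embedding.nonempty_of_card_le h
  exact ⟨f, f.injective⟩

/-- The number of seeds is linear in the number of nodes. -/
lemma card_seed_le (h : 2 ≤ Fintype.card κ) : Fintype.card (Seed κ) ≤ 4 * Fintype.card κ := by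
  simp only [Seed, Fintype.card_prod, Fintype.card_pi, Finset.prod_const, ZMod.card,
    Finset.card_univ, Fintype.card_fin]
  have h1 : 2 ^ (codeLen κ).pred < Fintype.card κ := Nat.pow_pred_clog_lt_self (by norm_num) (by omega)
  have h2 : 0 < codeLen κ := Nat.clog_pos (by norm_num) (by omega)
  obtain ⟨m, hm⟩ : ∃ m, codeLen κ = m + 1 := ⟨codeLen κ - 1, by omega⟩
  rw [hm] at h1 ⊢
  simp only [Nat.pred_succ] at h1
  rw [pow_succ]
  omega

/-- One run of the `6/11`-approximation on the weights `w`, with output `out`. Every subroutine is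
specified by what it has to return, with arbitrary tie breaking:
* `A`: a maximum weight permutation without fixed points (assignment problem),
* `rep`: a node on every cycle of `A`; `K0`: a lightest arc on every cycle of `A`;
  `l0`: a concatenation of the paths `A` minus `K0`;
* `c`: an injective binary code of the nodes, which defines the seeds `ω` (at most `4|κ|` of them)
  and pairwise independent bits `hashBit c ω`;
* for each seed: the cut `cutSet rep (hashBit c ω)` of the cycles of `A`, an optimal solution `σ2 ω` of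
  the second assignment problem, a lightest arc `K2 ω` on each of its cycles and a concatenation
  `l2 ω` of the resulting paths;
* `out`: the heaviest of the lists `l0`, `l2 ω`. -/
def IsAtspRun (w : κ → κ → ℕ) (out : List κ) : Prop :=
  ∃ (A : Perm κ) (rep : κ → κ) (K0 : Finset κ) (c : κ → Fin (codeLen κ) → ZMod 2)
    (σ2 : Seed κ → Perm κ) (K2 : Seed κ → Finset κ) (l0 : List κ) (l2 : Seed κ → List κ),
    IsMaxDer w A ∧ IsRep A rep ∧ IsLightest A univ (arcWt w A) K0 ∧ Function.Injective c ∧
    (∀ ω, IsMaxExt w A (cutSet rep (hashBit c ω)) (σ2 ω)) ∧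
    (∀ ω, IsLightest (σ2 ω) (cutSet rep (hashBit c ω)) (fun x => w2 w A x (σ2 ω x)) (K2 ω)) ∧
    IsHam l0 ∧ Follows l0 A K0 ∧ (∀ ω, IsHam (l2 ω) ∧ Follows (l2 ω) (σ2 ω) (K2 ω)) ∧
    (out = l0 ∨ ∃ ω, out = l2 ω) ∧
    pathVal w l0 ≤ pathVal w out ∧ ∀ ω, pathVal w (l2 ω) ≤ pathVal w out

/-- **The `6/11`-approximation for maximum Hamiltonian path**: the output of any run. -/
theorem atspRun_bound {w : κ → κ → ℕ} {out : List κ} (hout : IsAtspRun w out) :
    IsHam out ∧ ∀ l : List κ, IsHam l → 6 * pathVal w l ≤ 11 * pathVal w out := by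
  classical
  obtain ⟨A, rep, K0, c, σ2, K2, l0, l2, hA, hrep, hK0, hc, hσ, hK2, h0, h0f, h2, hcand, hb0, hb2⟩ :=
    hout
  refine ⟨?_, ?_⟩
  · rcases hcand with rfl | ⟨ω, rfl⟩
    · exact h0
    · exact (h2 ω).1
  intro l hl
  have hmain := atsp_bound (Ω := Seed κ) hA hl hrep hK0 (fun ω => hashBit c ω)
    (fun u b => hashBit_count1 c u b)
    (fun u u' hu b b' => hashBit_count2 c hc hu b b')
    σ2 hσ K2 hK2
  rcases hmain with h | ⟨ω, h⟩
  · have h1 := forestVal_le_pathVal w h0.1 h0f
    have h3 := hb0
    omega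
  · have h1 := forestVal_le_pathVal w (h2 ω).1.1 (h2 ω).2
    have h3 := hb2 ω
    omega

/-- Runs exist as soon as there are at least two nodes. -/
theorem exists_atspRun (w : κ → κ → ℕ) (h2 : 2 ≤ Fintype.card κ) : ∃ out, IsAtspRun w out := by
  classical
  have hder : ∃ B : Perm κ, ∀ x, B x ≠ x := by
    have hl := Finset.length_toList (univ : Finset κ)
    have hnd := Finset.nodup_toList (univ : Finset κ)
    refine ⟨(univ : Finset κ).toList.formPerm, fun x h => ?_⟩
    have := (List.formPerm_apply_mem_eq_self_iff _ hnd x (by simp)).mp h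
    rw [hl, Finset.card_univ] at this
    omega
  obtain ⟨hA1, hA2⟩ := maxPerm_spec (permVal w) hder
  set A := maxPerm (fun B : Perm κ => ∀ x, B x ≠ x) (permVal w) with hAdef
  have hA : IsMaxDer w A := ⟨hA1, hA2⟩
  have hrep := crep_isRep A
  obtain ⟨c, hc⟩ := exists_code (κ := κ)
  have hK0 := lightest_isLightest A univ (arcWt w A)
  set K0 := lightest A univ (arcWt w A)
  let σ2 : Seed κ → Perm κ := fun ω => maxPerm (fun τ => ∀ x, x ∉ cutSet (crep A) (hashBit c ω) → τ x = A x)
    (extVal w A (cutSet (crep A) (hashBit c ω)))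
  have hσ : ∀ ω, IsMaxExt w A (cutSet (crep A) (hashBit c ω)) (σ2 ω) := by
    intro ω
    have := maxPerm_spec (P := fun τ => ∀ x, x ∉ cutSet (crep A) (hashBit c ω) → τ x = A x)
      (extVal w A (cutSet (crep A) (hashBit c ω))) ⟨A, fun _ _ => rfl⟩
    exact ⟨this.1, this.2⟩
  let K2 : Seed κ → Finset κ := fun ω =>
    lightest (σ2 ω) (cutSet (crep A) (hashBit c ω)) (fun x => w2 w A x (σ2 ω x))
  have hK2 : ∀ ω, IsLightest (σ2 ω) (cutSet (crep A) (hashBit c ω))
      (fun x => w2 w A x (σ2 ω x)) (K2 ω) := fun ω => lightest_isLightest _ _ _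
  have hH0 : Hits A K0 := hits_of_isLightest hK0 (fun x => ⟨0, Finset.mem_univ _⟩)
  obtain ⟨l0, hl0, hl0f⟩ := exists_order hH0
  have hH2 : ∀ ω, Hits (σ2 ω) (K2 ω) := fun ω =>
    hits_of_isLightest (hK2 ω) (hits_ext (hits_cutSet hA.1 hrep _) (hσ ω).1)
  choose l2 hl2 using fun ω => exists_order (hH2 ω)
  -- choose the best candidate
  obtain ⟨o, _, ho⟩ := Finset.exists_max_image (univ : Finset (Option (Seed κ)))
    (fun o => pathVal w (o.elim l0 l2)) Finset.univ_nonempty
  refine ⟨o.elim l0 l2, A, crep A, K0, c, σ2, K2, l0, l2, hA, hrep, hK0, hc, hσ, hK2, hl0, hl0f,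
    hl2, ?_, ho none (Finset.mem_univ _), fun ω => ho (some ω) (Finset.mem_univ _)⟩
  cases o with
  | none => exact Or.inl rfl
  | some ω => exact Or.inr ⟨ω, rfl⟩

end algorithm

end Vale.Agent.Lib.P333.Atsp
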