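import Vale.Agent.Lib.P333.Chain

/-!
Occurrences in a superstring, the order lemma and the bound of the optimal cover by a superstring
(P333).
-/

namespace Vale.Agent.Lib.P333

open Finset

variable {α : Type*} [DecidableEq α] {ι : Type*}

/-- `x` occurs in `W` at position `a`. -/
def OccAt (W x : List α) (a : ℕ) : Prop :=
  a + x.length ≤ W.length ∧ (W.drop a).take x.length = x

omit [DecidableEq α] in
lemma exists_occAt {x W : List α} (h : x <:+: W) : ∃ a, OccAt W x a := by
  obtain ⟨A, B, rfl⟩ := h
  refine ⟨A.length, by simp, ?_⟩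
  simp [List.append_assoc]

omit [DecidableEq α] in
lemma take_of_occ {W x : List α} {a t : ℕ} (hx : OccAt W x a) (ht : t ≤ x.length) :
    x.take t = (W.drop a).take t := by
  conv_lhs => rw [← hx.2]
  rw [List.take_take]
  congr 1
  omega

omit [DecidableEq α] in
/-- Containment of occurrences. -/
lemma infix_of_occ {W x y : List α} {a b : ℕ} (hx : OccAt W x a) (hy : OccAt W y b)
    (hab : a ≤ b) (hend : b + y.length ≤ a + x.length) : y <:+: x := by
  have h1 : (x.drop (b - a)).take y.length = y := by
    conv_lhs => rw [← hx.2]
    rw [List.drop_take, List.drop_drop, List.take_take]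
    have e1 : a + (b - a) = b := by omega
    have e2 : min y.length (x.length - (b - a)) = y.length := by omega
    rw [e1, e2]
    exact hy.2
  rw [← h1]
  exact (List.take_prefix _ _).isInfix.trans (List.drop_suffix _ _).isInfix

/-- The basic overlap estimate for two occurrences. -/
lemma le_ov_of_occ {W x y X Y : List α} {a b t : ℕ} (hx : OccAt W x a) (hy : OccAt W y b)
    (hab : a < b) (htx : t ≤ x.length) (hX : ∃ A, X = A ++ x.take t) (hY : y <+: Y)
    (hno : ¬ y <:+: x) : a + t - b ≤ ov X Y := by
  by_cases hl : a + t ≤ b
  · omega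
  have hl := not_le.mp hl
  set l := a + t - b with hldef
  obtain ⟨A, rfl⟩ := hX
  have hlt : l < t := by omega
  have hly : l < y.length := by
    by_contra hcon
    have hcon := not_lt.mp hcon
    exact hno (infix_of_occ hx hy hab.le (by omega))
  have hlenX : l < (A ++ x.take t).length := by
    simp only [List.length_append, List.length_take]
    omega
  have hlenY : l < Y.length := lt_of_lt_of_le hly hY.length_le
  apply le_ov hlenX hlenY
  have hd : (A ++ x.take t).length - l = A.length + (t - l) := by
    simp only [List.length_append, List.length_take]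
    omega
  rw [hd, List.drop_append, take_of_occ hx htx, List.drop_take]
  have hlena : min t (W.drop a).length = t := by
    have := hx.1
    simp only [List.length_drop]
    omega
  rw [show (A.length + (t - l) - A.length) = t - l by omega]
  have hdrop : A.drop (A.length + (t - l)) = [] := by
    apply List.drop_eq_nil_of_le; omega
  rw [hdrop, List.nil_append, List.drop_drop]
  have e1 : a + (t - l) = b := by omega
  rw [e1, show t - (t - l) = l by omega]
  obtain ⟨B, rfl⟩ := hY
  rw [List.take_append_of_le_length hly.le, take_of_occ hy hly.le]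

/-- The telescoped order lemma along a sorted list. -/
lemma order_sum (Z : ι → List α) (a t : ι → ℕ) (B : ℕ)
    (harc : ∀ i j, a i < a j → a i + t i - a j ≤ ov (Z i) (Z j)) :
    ∀ (l : List ι) (h : ι), (h :: l).Pairwise (fun i j => a i < a j) →
      (∀ i ∈ h :: l, a i + t i ≤ B) →
      ((h :: l).map t).sum + a h ≤ ovSum ((h :: l).map Z) + B := by
  intro l
  induction l with
  | nil =>
    intro h _ hB
    have := hB h (by simp)
    simp [ovSum]
    omega
  | cons h' l ih =>
    intro h hp hB
    have hp' := List.pairwise_cons.mp hp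
    have hlt : a h < a h' := hp'.1 h' (by simp)
    have h1 := ih h' hp'.2 (fun i hi => hB i (List.mem_cons_of_mem _ hi))
    have h2 := harc h h' hlt
    simp only [List.map_cons, List.sum_cons, ovSum_cons_cons] at h1 ⊢
    omega

/-- A finite set can be listed in increasing order of an injective function. -/
lemma exists_sorted (H : Finset ι) (a : ι → ℕ) (hinj : Function.Injective a) :
    ∃ l : List ι, l.Nodup ∧ (∀ i, i ∈ l ↔ i ∈ H) ∧ l.Pairwise (fun i j => a i < a j) := by
  classical
  induction H using Finset.induction_on_max_value a with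
  | empty => exact ⟨[], by simp⟩
  | insert x s hx hmax ih =>
    obtain ⟨l, h1, h2, h3⟩ := ih
    refine ⟨l ++ [x], ?_, ?_, ?_⟩
    · rw [List.nodup_append]
      refine ⟨h1, by simp, ?_⟩
      intro y hy z hz
      have : z = x := by simpa using hz
      subst this
      rintro rfl
      exact hx ((h2 _).mp hy)
    · intro i
      simp [h2, or_comm]
    · rw [List.pairwise_append]
      refine ⟨h3, by simp, ?_⟩
      intro y hy z hz
      have : z = x := by simpa using hz
      subst this
      have hys := (h2 y).mp hy
      have h4 := hmax y hys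
      have hne : y ≠ z := by rintro rfl; exact hx hys
      exact lt_of_le_of_ne h4 (fun e => hne (hinj e))

section positions

variable [Fintype ι] (s : ι → List α) (W : List α)

omit [DecidableEq α] [Fintype ι] in
/-- Positions of a substring free family in a superstring are distinct. -/
lemma pos_injective (hfree : ∀ i j, s i <:+: s j → i = j) (a : ι → ℕ)
    (ha : ∀ i, OccAt W (s i) (a i)) : Function.Injective a := by
  intro i j hij
  rcases le_total (s i).length (s j).length with hle | hle
  · exact hfree i j (infix_of_occ (ha j) (ha i) (by omega) (by omega))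
  · exact (hfree j i (infix_of_occ (ha i) (ha j) (by omega) (by omega))).symm

omit [Fintype ι] in
/-- The cost of an arc between two occurrences is at most the distance of the start positions. -/
lemma arcCost_le_of_occ (hfree : ∀ i j, s i <:+: s j → i = j) (a : ι → ℕ)
    (ha : ∀ i, OccAt W (s i) (a i)) {i j : ι} (hij : a i < a j) :
    arcCost (s i) (s j) ≤ a j - a i := by
  have hnij : i ≠ j := by rintro rfl; omega
  have h1 : a i + (s i).length - a j ≤ ov (s i) (s j) :=
    le_ov_of_occ (ha i) (ha j) hij le_rfl ⟨[], by simp⟩ (List.prefix_refl _)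
      (fun h => hnij (hfree j i h).symm)
  unfold arcCost
  omega

lemma sum_fin_telescope : ∀ (n : ℕ) (b : Fin (n + 1) → ℕ), Monotone b →
    ∑ k : Fin n, (b k.succ - b k.castSucc) + b 0 = b (Fin.last n) := by
  intro n
  induction n with
  | zero => intro b _; simp
  | succ n ih =>
    intro b hb
    rw [Fin.sum_univ_castSucc]
    have h1 := ih (fun k => b k.castSucc) (fun x y hxy => hb (Fin.castSucc_le_castSucc_iff.mpr hxy))
    have h2 : b (Fin.castSucc (Fin.last n)) ≤ b (Fin.succ (Fin.last n)) :=
      hb (Fin.castSucc_lt_succ).le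
    simp only [Fin.castSucc_zero] at h1
    have h3 : ∑ k : Fin n, (b k.castSucc.succ - b k.castSucc.castSucc)
        = ∑ k : Fin n, (b k.succ.castSucc - b k.castSucc.castSucc) := by
      apply Finset.sum_congr rfl
      intro k _
      rw [Fin.succ_castSucc]
    rw [h3, show Fin.last (n + 1) = (Fin.last n).succ from (Fin.succ_last n).symm]
    omega

/-- A cycle cover of cost at most the length of any superstring exists. -/
lemma exists_cover_le (hne : ∀ i, s i ≠ []) (hfree : ∀ i j, s i <:+: s j → i = j)
    (hW : ∀ i, s i <:+: W) : ∃ τ : Equiv.Perm ι, coverCost s τ ≤ W.length := by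
  classical
  have hocc : ∀ i, ∃ a, OccAt W (s i) a := fun i => exists_occAt (hW i)
  choose a ha using hocc
  have hinj := pos_injective s W hfree a ha
  let _ : LinearOrder ι := LinearOrder.lift' a hinj
  have hlt : ∀ i j : ι, i < j ↔ a i < a j := fun i j => Iff.rfl
  rcases Nat.eq_zero_or_pos (Fintype.card ι) with h0 | hpos
  · refine ⟨1, ?_⟩
    have : IsEmpty ι := Fintype.card_eq_zero_iff.mp h0
    simp [coverCost]
  obtain ⟨n, hn⟩ : ∃ n, Fintype.card ι = n + 1 := ⟨Fintype.card ι - 1, by omega⟩
  let e : Fin (n + 1) ≃o ι := Fintype.orderIsoFinOfCardEq ι hn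
  let τ : Equiv.Perm ι := e.symm.toEquiv.trans ((finRotate (n + 1)).trans e.toEquiv)
  refine ⟨τ, ?_⟩
  have hτ : ∀ k : Fin (n + 1), τ (e k) = e (finRotate (n + 1) k) := by
    intro k
    simp [τ]
  have h1 : coverCost s τ = ∑ k : Fin (n + 1), arcCost (s (e k)) (s (e (finRotate (n + 1) k))) := by
    unfold coverCost
    rw [← Equiv.sum_comp e.toEquiv]
    apply Finset.sum_congr rfl
    intro k _
    simp only [RelIso.coe_fn_toEquiv]
    rw [hτ]
  rw [h1, Fin.sum_univ_castSucc]
  set b : Fin (n + 1) → ℕ := fun k => a (e k) with hb
  have hbmono : Monotone b := by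
    intro x y hxy
    rcases eq_or_lt_of_le hxy with rfl | hlt'
    · exact le_rfl
    · exact ((hlt _ _).mp (e.strictMono hlt')).le
  have h2 : ∀ k : Fin n, arcCost (s (e k.castSucc)) (s (e (finRotate (n + 1) k.castSucc)))
      ≤ b k.succ - b k.castSucc := by
    intro k
    rw [finRotate_succ_apply, Fin.coeSucc_eq_succ]
    apply arcCost_le_of_occ s W hfree a ha
    exact (hlt _ _).mp (e.strictMono (Fin.castSucc_lt_succ))
  have h3 := Finset.sum_le_sum (fun k (_ : k ∈ (Finset.univ : Finset (Fin n))) => h2 k)
  have h4 := sum_fin_telescope n b hbmono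
  have h5 : arcCost (s (e (Fin.last n))) (s (e (finRotate (n + 1) (Fin.last n))))
      ≤ (s (e (Fin.last n))).length := Nat.sub_le _ _
  have h6 := (ha (e (Fin.last n))).1
  have h7 : b (Fin.last n) = a (e (Fin.last n)) := rfl
  omega

/-- An optimal cycle cover costs at most the length of any superstring. -/
lemma coverCost_le (hne : ∀ i, s i ≠ []) (hfree : ∀ i j, s i <:+: s j → i = j)
    (hW : ∀ i, s i <:+: W) {σ : Equiv.Perm ι} (hσ : IsOptimalCover s σ) :
    coverCost s σ ≤ W.length := by
  obtain ⟨τ, hτ⟩ := exists_cover_le s W hne hfree hW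
  exact (hσ τ).trans hτ

end positions

end Vale.Agent.Lib.P333
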