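import Mathlib

/-!
# Rauzy graph count

For a word `W` and finitely many periodic sequences with minimal periods `p c`, pairwise not shifts
of one another, such that all windows of length `L c` of the `c`-th sequence are factors of `W`,
one has `∑ c, (L c + 1 - p c) ≤ W.length`.
-/

namespace Vale.Agent.Lib.P333

open Finset

variable {α : Type*}

/-- The window of length `L` starting at position `a` of a sequence. -/
def win (w : ℕ → α) (a L : ℕ) : List α := (List.range L).map (fun i => w (a + i))

@[simp] lemma win_length (w : ℕ → α) (a L : ℕ) : (win w a L).length = L := by simp [win]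

lemma win_getElem (w : ℕ → α) (a L i : ℕ) (hi : i < (win w a L).length) :
    (win w a L)[i] = w (a + i) := by
  simp [win]

lemma win_succ (w : ℕ → α) (a L : ℕ) : win w a (L + 1) = win w a L ++ [w (a + L)] := by
  simp [win, List.range_succ]

lemma win_dropLast (w : ℕ → α) (a L : ℕ) : (win w a (L + 1)).dropLast = win w a L := by
  simp [win_succ]

lemma win_tail (w : ℕ → α) (a L : ℕ) : (win w a (L + 1)).tail = win w (a + 1) L := by
  apply List.ext_getElem
  · simp
  · intro i h₁ h₂
    simp only [List.getElem_tail, win_getElem]
    congr 1; omega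

lemma win_eq_iff (w w' : ℕ → α) (a b L : ℕ) :
    win w a L = win w' b L ↔ ∀ i, i < L → w (a + i) = w' (b + i) := by
  constructor
  · intro h i hi
    have h1 : (win w a L)[i]'(by simpa using hi) = (win w' b L)[i]'(by simpa using hi) := by
      simp only [h]
    simpa [win_getElem] using h1
  · intro h
    apply List.ext_getElem
    · simp
    · intro i h₁ h₂
      simp only [win_getElem]
      exact h i (by simpa using h₁)

/-- Two `p`-periodic sequences which agree on `p` consecutive positions agree from then on. -/
lemma agree_of_agree_period {w w' : ℕ → α} {p a b : ℕ} (hp : 0 < p)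
    (hw : ∀ i, w (i + p) = w i) (hw' : ∀ i, w' (i + p) = w' i)
    (h : ∀ i, i < p → w (a + i) = w' (b + i)) : ∀ i, w (a + i) = w' (b + i) := by
  intro i
  induction i using Nat.strong_induction_on with
  | _ i ih =>
    by_cases hi : i < p
    · exact h i hi
    · obtain ⟨j, rfl⟩ : ∃ j, i = j + p := ⟨i - p, by omega⟩
      have := ih j (by omega)
      rw [show a + (j + p) = (a + j) + p by omega, show b + (j + p) = (b + j) + p by omega,
        hw, hw', this]

/-- A periodic sequence which has period `q` from position `y` on has period `q` everywhere. -/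
lemma period_of_shift {w : ℕ → α} {p q y : ℕ} (hp : 0 < p)
    (hw : ∀ i, w (i + p) = w i) (h : ∀ i, w (y + q + i) = w (y + i)) : ∀ i, w (i + q) = w i := by
  have hk : ∀ k i, w (i + k * p) = w i := by
    intro k
    induction k with
    | zero => intro i; simp
    | succ k ih =>
      intro i
      rw [show i + (k + 1) * p = (i + k * p) + p by ring, hw, ih]
  intro i
  -- move `i` beyond `y`
  have h1 := h (i + y * p - y + 0)
  have hy : y ≤ y * p := Nat.le_mul_of_pos_right y hp
  have e1 : y + q + (i + y * p - y + 0) = (i + q) + y * p := by omega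
  have e2 : y + (i + y * p - y + 0) = i + y * p := by omega
  rw [e1, e2, hk, hk] at h1
  exact h1

/-- The set of factors of length `L` of a word. -/
noncomputable def facs (W : List α) (L : ℕ) : Finset (List α) := by
  classical
  exact (Finset.range (W.length + 1 - L)).image (fun i => (W.drop i).take L)

lemma mem_facs {W x : List α} {L : ℕ} : x ∈ facs W L ↔ x.length = L ∧ x <:+: W := by
  classical
  unfold facs
  simp only [Finset.mem_image, Finset.mem_range]
  constructor
  · rintro ⟨i, hi, rfl⟩
    constructor
    · simp only [List.length_take, List.length_drop]; omega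
    · exact ((List.take_prefix _ _).isInfix).trans (List.drop_suffix _ _).isInfix
  · rintro ⟨rfl, s, t, rfl⟩
    refine ⟨s.length, ?_, ?_⟩
    · simp only [List.length_append]; omega
    · simp [List.append_assoc]

lemma facs_zero_card (W : List α) : (facs W 0).card = 1 := by
  classical
  have : facs W 0 = {[]} := by
    ext x
    simp only [mem_facs, Finset.mem_singleton]
    constructor
    · rintro ⟨h, -⟩; exact List.length_eq_zero_iff.mp h
    · rintro rfl; simp
  rw [this]; simp

lemma facs_length_card (W : List α) : (facs W W.length).card = 1 := by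
  classical
  have : facs W W.length = {W} := by
    ext x
    simp only [mem_facs, Finset.mem_singleton]
    constructor
    · rintro ⟨h, hx⟩; exact hx.eq_of_length h
    · rintro rfl; simp
  rw [this]; simp

/-- The window of `W` at position `i`. -/
def wwin (W : List α) (i L : ℕ) : List α := (W.drop i).take L

lemma wwin_mem {W : List α} {i L : ℕ} (h : i + L ≤ W.length) : wwin W i L ∈ facs W L := by
  rw [mem_facs]
  constructor
  · simp only [wwin, List.length_take, List.length_drop]; omega
  · exact ((List.take_prefix _ _).isInfix).trans (List.drop_suffix _ _).isInfix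

lemma wwin_dropLast {W : List α} {i L : ℕ} (h : i + L + 1 ≤ W.length) :
    (wwin W i (L + 1)).dropLast = wwin W i L := by
  unfold wwin
  apply List.ext_getElem
  · simp only [List.length_dropLast, List.length_take, List.length_drop]; omega
  · intro j h₁ h₂
    simp only [List.getElem_dropLast, List.getElem_take]

lemma wwin_tail (W : List α) (i L : ℕ) :
    (wwin W i (L + 1)).tail = wwin W (i + 1) L := by
  unfold wwin
  apply List.ext_getElem
  · simp only [List.length_tail, List.length_take, List.length_drop]; omega
  · intro j h₁ h₂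
    simp only [List.getElem_tail, List.getElem_take, List.getElem_drop]
    congr 1; omega

lemma exists_wwin {W x : List α} {L : ℕ} (h : x ∈ facs W L) :
    ∃ i, i + L ≤ W.length ∧ x = wwin W i L := by
  rw [mem_facs] at h
  obtain ⟨rfl, s, t, rfl⟩ := h
  refine ⟨s.length, ?_, ?_⟩
  · simp only [List.length_append]; omega
  · simp [wwin, List.append_assoc]

lemma win_append (w : ℕ → α) (a L M : ℕ) : win w a (L + M) = win w a L ++ win w (a + L) M := by
  induction M with
  | zero => simp [win]
  | succ M ih =>
    rw [← add_assoc, win_succ, ih, win_succ]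
    simp only [List.append_assoc]
    rw [show a + (L + M) = a + L + M by omega]

/-- Counting vertices of a connected multigraph. -/
lemma card_le_of_reach {β γ : Type*} (V : Finset β) (B : Finset γ) (t h : γ → β)
    (ht : ∀ x ∈ B, t x ∈ V) (hh : ∀ x ∈ B, h x ∈ V) (hne : V.Nonempty)
    (hconn : ∀ a ∈ V, ∀ b ∈ V,
      Relation.EqvGen (fun u v => ∃ x ∈ B, t x = u ∧ h x = v) a b) :
    V.card ≤ B.card + 1 := by
  classical
  let G : SimpleGraph V := SimpleGraph.fromRel (fun a b : V => ∃ x ∈ B, t x = a.1 ∧ h x = b.1)
  have hreach : ∀ a b : β, Relation.EqvGen (fun u v => ∃ x ∈ B, t x = u ∧ h x = v) a b →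
      (a ∈ V ↔ b ∈ V) ∧ ∀ (ha : a ∈ V) (hb : b ∈ V), G.Reachable ⟨a, ha⟩ ⟨b, hb⟩ := by
    intro a b hab
    induction hab with
    | rel a b hr =>
      obtain ⟨x, hx, rfl, rfl⟩ := hr
      refine ⟨⟨fun _ => hh x hx, fun _ => ht x hx⟩, fun ha hb => ?_⟩
      by_cases hne : (⟨t x, ha⟩ : V) = ⟨h x, hb⟩
      · rw [hne]
      · apply SimpleGraph.Adj.reachable
        rw [SimpleGraph.fromRel_adj]
        exact ⟨hne, Or.inl ⟨x, hx, rfl, rfl⟩⟩
    | refl a => exact ⟨Iff.rfl, fun _ _ => SimpleGraph.Reachable.refl _⟩
    | symm a b _ ih =>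
      exact ⟨ih.1.symm, fun ha hb => (ih.2 hb ha).symm⟩
    | trans a b c _ _ ih1 ih2 =>
      refine ⟨ih1.1.trans ih2.1, fun ha hc => ?_⟩
      have hb := ih1.1.mp ha
      exact (ih1.2 ha hb).trans (ih2.2 hb hc)
  have hG : G.Connected := by
    have : Nonempty V := ⟨⟨hne.choose, hne.choose_spec⟩⟩
    refine ⟨?_⟩
    rintro ⟨a, ha⟩ ⟨b, hb⟩
    exact (hreach a b (hconn a ha b hb)).2 ha hb
  have hcard := hG.card_vert_le_card_edgeSet_add_one
  have key : ∀ e : G.edgeSet, ∃ x : B, (e : Sym2 V) = s(⟨t x, ht x x.2⟩, ⟨h x, hh x x.2⟩) := by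
    rintro ⟨e, he⟩
    induction e using Sym2.ind with
    | _ a b =>
      simp only [SimpleGraph.mem_edgeSet] at he
      rw [SimpleGraph.fromRel_adj] at he
      obtain ⟨_, ⟨x, hx, h1, h2⟩ | ⟨x, hx, h1, h2⟩⟩ := he
      · refine ⟨⟨x, hx⟩, ?_⟩
        have e1 : (⟨t x, ht x hx⟩ : V) = a := Subtype.ext h1
        have e2 : (⟨h x, hh x hx⟩ : V) = b := Subtype.ext h2
        simp only [e1, e2]
      · refine ⟨⟨x, hx⟩, ?_⟩
        have e1 : (⟨t x, ht x hx⟩ : V) = b := Subtype.ext h1
        have e2 : (⟨h x, hh x hx⟩ : V) = a := Subtype.ext h2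
        simp only [e1, e2]
        exact Sym2.eq_swap
  choose f hf using key
  have hinj : Function.Injective f := by
    intro e e' hee
    apply Subtype.ext
    rw [hf e, hf e', hee]
  have h1 : Nat.card G.edgeSet ≤ Nat.card B := Nat.card_le_card_of_injective f hinj
  simp only [Nat.card_eq_fintype_card, Fintype.card_coe] at hcard h1
  omega

/-- A primitive periodic sequence has a window of length the period without a border. -/
lemma exists_unbordered {w : ℕ → α} {p : ℕ} (hp : 0 < p) (hper : ∀ i, w (i + p) = w i)
    (hmin : ∀ q, 0 < q → q < p → ¬ ∀ i, w (i + q) = w i) :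
    ∃ y, ∀ q, 0 < q → q < p → ∃ i, i + q < p ∧ w (y + i) ≠ w (y + i + q) := by
  classical
  let _ : LinearOrder α := IsWellOrder.linearOrder WellOrderingRel
  have hmod : ∀ a L, win w (a % p) L = win w a L := by
    intro a L
    rw [win_eq_iff]
    intro i _
    have hk : ∀ k n, w (n + k * p) = w n := by
      intro k
      induction k with
      | zero => intro n; simp
      | succ k ih =>
        intro n
        rw [show n + (k + 1) * p = (n + k * p) + p by ring, hper, ih]
    have := Nat.mod_add_div a p
    conv_rhs => rw [← this]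
    rw [show a % p + p * (a / p) + i = (a % p + i) + (a / p) * p by ring, hk]
  obtain ⟨y, -, hy⟩ := Finset.exists_min_image (Finset.range p) (fun y => win w y p)
    ⟨0, Finset.mem_range.mpr hp⟩
  have hy' : ∀ a, win w y p ≤ win w a p := by
    intro a
    rw [← hmod a p]
    exact hy _ (Finset.mem_range.mpr (Nat.mod_lt _ hp))
  refine ⟨y, fun q hq hqp => ?_⟩
  by_contra hcon
  push Not at hcon
  obtain ⟨b, hb⟩ : ∃ b, q + b = p := ⟨p - q, by omega⟩
  have hb0 : 0 < b := by omega
  have hwp : ∀ L, win w (y + p) L = win w y L := by
    intro L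
    rw [win_eq_iff]
    intro i _
    rw [show y + p + i = (y + i) + p by omega, hper]
  have E1 : win w y p = win w y b ++ win w (y + b) q := by
    rw [← win_append, show b + q = p by omega]
  have E2 : win w y p = win w y q ++ win w (y + q) b := by
    rw [← win_append, hb]
  have E3 : win w (y + q) b = win w y b := by
    rw [win_eq_iff]
    intro i hi
    rw [hcon i (by omega)]
    congr 1; omega
  have Rq : win w (y + q) p = win w y b ++ win w y q := by
    have h0 : win w (y + q) (b + q) = win w (y + q) b ++ win w (y + q + b) q := win_append _ _ _ _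
    rw [show b + q = p by omega, E3, show y + q + b = y + p by omega, hwp] at h0
    exact h0
  have Rb : win w (y + b) p = win w (y + b) q ++ win w y b := by
    have h0 : win w (y + b) (q + b) = win w (y + b) q ++ win w (y + b + q) b := win_append _ _ _ _
    rw [hb, show y + b + q = y + p by omega, hwp] at h0
    exact h0
  set v1 := win w y b with hv1
  set x := win w (y + b) q with hx
  set z := win w y q with hz
  have hlen : x.length = z.length := by simp [hx, hz]
  have h1 : ¬ z < x := by
    intro hlt
    have : List.Lex (· < ·) (v1 ++ z) (v1 ++ x) := List.Lex.append_left _ hlt v1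
    have h2 : v1 ++ z < v1 ++ x := this
    have h3 := hy' (y + q)
    rw [Rq, E1] at h3
    exact absurd h2 (not_lt.mpr h3)
  have h2 : ¬ x < z := by
    intro hlt
    have hlex : ∀ (a c t : List α), List.Lex (· < ·) a c → a.length = c.length →
        List.Lex (· < ·) (a ++ t) (c ++ t) := by
      intro a c t hac
      induction hac with
      | nil => intro h; simp at h
      | cons _ ih =>
        intro h
        simp only [List.length_cons, Nat.add_right_cancel_iff] at h
        exact List.Lex.cons (ih h)
      | rel h' => intro _; exact List.Lex.rel h'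
    have h3 : x ++ v1 < z ++ v1 := hlex x z v1 hlt hlen
    have h4 := hy' (y + b)
    rw [Rb, E2, E3] at h4
    exact absurd h3 (not_lt.mpr h4)
  have hxz : x = z := le_antisymm (not_lt.mp h1) (not_lt.mp h2)
  have hR : win w (y + b) p = win w y p := by
    rw [Rb, E2, E3, hxz]
  rw [win_eq_iff] at hR
  have hall := agree_of_agree_period hp hper hper hR
  have hper2 := period_of_shift (q := b) hp hper hall
  exact hmin b hb0 (by omega) hper2

/-- One level of the count: the closed walks of the periodic sequences are independent in the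
Rauzy graph of order `L`. -/
theorem level_bound {κ : Type*} (W : List α) (L : ℕ) (hL : L < W.length) (U : Finset κ)
    (w : κ → ℕ → α) (p : κ → ℕ)
    (hp : ∀ c ∈ U, 0 < p c) (hper : ∀ c ∈ U, ∀ i, w c (i + p c) = w c i)
    (hmin : ∀ c ∈ U, ∀ q, 0 < q → q < p c → ¬ ∀ i, w c (i + q) = w c i)
    (hdist : ∀ c ∈ U, ∀ c' ∈ U, c ≠ c' → ∀ a b, ¬ ∀ i, w c (a + i) = w c' (b + i))
    (hle : ∀ c ∈ U, p c ≤ L + 1)
    (hwin : ∀ c ∈ U, ∀ a, win (w c) a (L + 1) ∈ facs W (L + 1)) :
    U.card + (facs W L).card ≤ (facs W (L + 1)).card + 1 := by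
  classical
  have hy0 : ∀ c ∈ U, ∃ y, ∀ q, 0 < q → q < p c → ∃ i, i + q < p c ∧ w c (y + i) ≠ w c (y + i + q) :=
    fun c hc => exists_unbordered (hp c hc) (hper c hc) (hmin c hc)
  choose! y hy using hy0
  set a : κ → List α := fun c => win (w c) (y c) (L + 1) with ha
  set R : Finset (List α) := U.image a with hR
  set A := facs W (L + 1) with hA
  set B := A \ R with hB
  -- privacy of the chosen arcs
  have priv : ∀ c ∈ U, ∀ c' ∈ U, ∀ b, a c = win (w c') b (L + 1) → p c' ≤ p c → c' = c := by
    intro c hc c' hc' b hab hpp
    rw [ha, win_eq_iff] at hab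
    by_cases heq : p c' = p c
    · by_contra hne
      have h1 : ∀ i, i < p c → w c (y c + i) = w c' (b + i) := fun i hi =>
        hab i (by have := hle c hc; omega)
      have hper' : ∀ i, w c' (i + p c) = w c' i := by
        intro i; rw [← heq]; exact hper c' hc' i
      have h2 := agree_of_agree_period (hp c hc) (hper c hc) hper' h1
      exact hdist c hc c' hc' (Ne.symm hne) _ _ h2
    · exfalso
      have hlt : p c' < p c := by omega
      obtain ⟨i, hi, hne⟩ := hy c hc (p c') (hp c' hc') hlt
      apply hne
      have hle' := hle c hc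
      rw [hab i (by omega), show y c + i + p c' = y c + (i + p c') by omega,
        hab (i + p c') (by omega), show b + (i + p c') = (b + i) + p c' by omega, hper c' hc']
  have ainj : Set.InjOn a U := by
    intro c hc c' hc' h
    by_cases hpp : p c' ≤ p c
    · exact (priv c hc c' hc' (y c') h hpp).symm
    · exact priv c' hc' c hc (y c) h.symm (by omega)
  have rotne : ∀ c ∈ U, ∀ i, 0 < i → i < p c → win (w c) (y c + i) (L + 1) ≠ a c := by
    intro c hc i hi hip heq
    rw [ha, win_eq_iff] at heq
    have h1 : ∀ j, j < p c → w c (y c + i + j) = w c (y c + j) := fun j hj =>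
      heq j (by have := hle c hc; omega)
    have h2 := agree_of_agree_period (hp c hc) (hper c hc) (hper c hc) h1
    exact hmin c hc i hi hip (period_of_shift (hp c hc) (hper c hc) h2)
  -- reachability
  let r : List α → List α → Prop := fun u v => ∃ x ∈ B, x.dropLast = u ∧ x.tail = v
  have key : ∀ n, ∀ c ∈ U, p c = n →
      Relation.EqvGen r (win (w c) (y c) L) (win (w c) (y c + 1) L) := by
    intro n
    induction n using Nat.strong_induction_on with
    | _ n ih =>
      intro c hc hn
      have walk : ∀ i, i < p c →
          Relation.EqvGen r (win (w c) (y c + 1) L) (win (w c) (y c + 1 + i) L) := by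
        intro i
        induction i with
        | zero => intro _; exact Relation.EqvGen.refl _
        | succ i ih2 =>
          intro hi
          refine (ih2 (by omega)).trans _ _ _ ?_
          set x := win (w c) (y c + 1 + i) (L + 1) with hx
          have hxd : x.dropLast = win (w c) (y c + 1 + i) L := win_dropLast _ _ _
          have hxt : x.tail = win (w c) (y c + 1 + (i + 1)) L := by
            rw [hx, win_tail]; rfl
          by_cases hxR : x ∈ R
          · obtain ⟨c', hc', hcx⟩ := Finset.mem_image.mp hxR
            have hlt : p c' < p c := by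
              by_contra hge
              have := priv c' hc' c hc (y c + 1 + i) hcx (by omega)
              subst this
              apply rotne c hc (1 + i) (by omega) (by omega)
              rw [← add_assoc]
              exact hcx.symm
            have h3 := ih (p c') (by omega) c' hc' rfl
            have hcx1 : win (w c') (y c') L = win (w c) (y c + 1 + i) L := by
              rw [← win_dropLast (w c') (y c') L, ← hxd, ← hcx]
            have hcx2 : win (w c') (y c' + 1) L = win (w c) (y c + 1 + (i + 1)) L := by
              rw [← win_tail (w c') (y c') L, ← hxt, ← hcx]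
            rw [hcx1, hcx2] at h3
            exact h3
          · apply Relation.EqvGen.rel
            exact ⟨x, Finset.mem_sdiff.mpr ⟨hwin c hc _, hxR⟩, hxd, hxt⟩
      have h1 := walk (p c - 1) (by have := hp c hc; omega)
      have h2 : win (w c) (y c + 1 + (p c - 1)) L = win (w c) (y c) L := by
        rw [win_eq_iff]
        intro i _
        have := hp c hc
        rw [show y c + 1 + (p c - 1) + i = (y c + i) + p c by omega, hper c hc]
      rw [h2] at h1
      exact h1.symm _ _
  have arcs : ∀ x ∈ A, Relation.EqvGen r x.dropLast x.tail := by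
    intro x hx
    by_cases hxR : x ∈ R
    · obtain ⟨c, hc, hcx⟩ := Finset.mem_image.mp hxR
      have := key _ c hc rfl
      rw [← hcx, ha]
      simp only [win_dropLast, win_tail]
      exact this
    · exact Relation.EqvGen.rel _ _ ⟨x, Finset.mem_sdiff.mpr ⟨hx, hxR⟩, rfl, rfl⟩
  have verts : ∀ i, i + L ≤ W.length → Relation.EqvGen r (wwin W 0 L) (wwin W i L) := by
    intro i
    induction i with
    | zero => intro _; exact Relation.EqvGen.refl _
    | succ i ih =>
      intro hi
      refine (ih (by omega)).trans _ _ _ ?_
      have hmem : wwin W i (L + 1) ∈ A := wwin_mem (by omega)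
      have := arcs _ hmem
      rw [wwin_dropLast (by omega), wwin_tail] at this
      exact this
  have hBA : ∀ x ∈ B, x ∈ A := fun x hx => (Finset.mem_sdiff.mp hx).1
  have hcard := card_le_of_reach (facs W L) B (fun x => x.dropLast) (fun x => x.tail)
    (by
      intro x hx
      have h := mem_facs.mp (hBA x hx)
      refine mem_facs.mpr ⟨by simp [h.1], ?_⟩
      exact (List.dropLast_prefix x).isInfix.trans h.2)
    (by
      intro x hx
      have h := mem_facs.mp (hBA x hx)
      refine mem_facs.mpr ⟨by simp [h.1], ?_⟩
      exact (List.tail_suffix x).isInfix.trans h.2)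
    ⟨_, wwin_mem (i := 0) (by omega)⟩
    (by
      intro u hu v hv
      obtain ⟨i, hi, rfl⟩ := exists_wwin hu
      obtain ⟨j, hj, rfl⟩ := exists_wwin hv
      exact ((verts i hi).symm _ _).trans _ _ _ (verts j hj))
  have hRA : R ⊆ A := by
    intro x hx
    obtain ⟨c, hc, rfl⟩ := Finset.mem_image.mp hx
    exact hwin c hc _
  have hRcard : R.card = U.card := Finset.card_image_of_injOn ainj
  have hBcard : B.card = A.card - R.card := Finset.card_sdiff_of_subset hRA
  have hRle := Finset.card_le_card hRA
  omega

/-- **Rauzy count.** For finitely many periodic sequences with minimal periods `p c`, pairwise not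
shifts of one another, all of whose windows of length `ℓ c` are factors of the word `W`, the sum of
`ℓ c + 1 - p c` is at most the length of `W`. -/
theorem rauzy_count {κ : Type*} (W : List α) (U : Finset κ)
    (w : κ → ℕ → α) (p ℓ : κ → ℕ)
    (hp : ∀ c ∈ U, 0 < p c) (hper : ∀ c ∈ U, ∀ i, w c (i + p c) = w c i)
    (hmin : ∀ c ∈ U, ∀ q, 0 < q → q < p c → ¬ ∀ i, w c (i + q) = w c i)
    (hdist : ∀ c ∈ U, ∀ c' ∈ U, c ≠ c' → ∀ a b, ¬ ∀ i, w c (a + i) = w c' (b + i))
    (hwin : ∀ c ∈ U, ∀ a, win (w c) a (ℓ c) ∈ facs W (ℓ c)) :
    ∑ c ∈ U, (ℓ c + 1 - p c) ≤ W.length := by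
  classical
  set n := W.length with hn
  have hlev : ∀ L ∈ Finset.range n,
      (U.filter (fun c => p c ≤ L + 1 ∧ L + 1 ≤ ℓ c)).card + (facs W L).card
        ≤ (facs W (L + 1)).card + 1 := by
    intro L hL
    apply level_bound W L (Finset.mem_range.mp hL) _ w p
    · intro c hc; exact hp c (Finset.mem_filter.mp hc).1
    · intro c hc; exact hper c (Finset.mem_filter.mp hc).1
    · intro c hc; exact hmin c (Finset.mem_filter.mp hc).1
    · intro c hc c' hc'; exact hdist c (Finset.mem_filter.mp hc).1 c' (Finset.mem_filter.mp hc').1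
    · intro c hc; exact (Finset.mem_filter.mp hc).2.1
    · intro c hc a
      obtain ⟨hcU, -, hle⟩ := Finset.mem_filter.mp hc
      have h1 := mem_facs.mp (hwin c hcU a)
      refine mem_facs.mpr ⟨by simp, ?_⟩
      obtain ⟨k, hk⟩ := Nat.exists_eq_add_of_le hle
      have h2 : win (w c) a (L + 1) <+: win (w c) a (ℓ c) := by
        rw [hk, win_append (w c) a (L + 1) k]; exact List.prefix_append _ _
      exact h2.isInfix.trans h1.2
  have hsum := Finset.sum_le_sum hlev
  rw [Finset.sum_add_distrib, Finset.sum_add_distrib] at hsum
  have htel : ∑ L ∈ Finset.range n, (facs W (L + 1)).card = ∑ L ∈ Finset.range n, (facs W L).card := by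
    have h1 := Finset.sum_range_succ (fun L => (facs W L).card) n
    have h2 := Finset.sum_range_succ' (fun L => (facs W L).card) n
    rw [hn, facs_length_card] at h1
    rw [facs_zero_card] at h2
    rw [← hn] at h1
    omega
  have hU : ∑ L ∈ Finset.range n, (U.filter (fun c => p c ≤ L + 1 ∧ L + 1 ≤ ℓ c)).card ≤ n := by
    simp only [Finset.sum_const, Finset.card_range, smul_eq_mul, mul_one] at hsum
    omega
  refine le_trans ?_ hU
  have hswap : ∑ L ∈ Finset.range n, (U.filter (fun c => p c ≤ L + 1 ∧ L + 1 ≤ ℓ c)).card
      = ∑ c ∈ U, ((Finset.range n).filter (fun L => p c ≤ L + 1 ∧ L + 1 ≤ ℓ c)).card := by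
    simp only [Finset.card_filter]
    exact Finset.sum_comm
  rw [hswap]
  apply Finset.sum_le_sum
  intro c hc
  have hℓ : ℓ c ≤ n := by
    have h1 := mem_facs.mp (hwin c hc 0)
    have := h1.2.length_le
    rw [h1.1] at this
    exact this
  have hpc := hp c hc
  have hsub : Finset.Ico (p c - 1) (ℓ c) ⊆
      (Finset.range n).filter (fun L => p c ≤ L + 1 ∧ L + 1 ≤ ℓ c) := by
    intro L hL
    rw [Finset.mem_Ico] at hL
    rw [Finset.mem_filter, Finset.mem_range]
    omega
  have := Finset.card_le_card hsub
  rw [Nat.card_Ico] at this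
  omega

end Vale.Agent.Lib.P333
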