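import Vale.Agent.Lib.P333.Cycles

/-!
Relinking strings which are factors of one periodic sequence into a single cycle (P333).
-/

namespace Vale.Agent.Lib.P333

open Finset

variable {α : Type*} [DecidableEq α] {ι : Type*}

/-- A cyclic permutation along increasing values of an injective function, whose cost telescopes. -/
lemma exists_perm_cost_le {κ : Type*} [Fintype κ] [Nonempty κ] (a : κ → ℕ)
    (hinj : Function.Injective a) (f : κ → κ → ℕ) (Q : ℕ)
    (hstep : ∀ i j, a i < a j → f i j + a i ≤ a j)
    (hclose : ∀ i j, a i ≤ a j → f j i + a j ≤ Q + a i) :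
    ∃ ρ : Equiv.Perm κ, ∑ i, f i (ρ i) ≤ Q := by
  classical
  let _ : LinearOrder κ := LinearOrder.lift' a hinj
  have hlt : ∀ i j : κ, i < j ↔ a i < a j := fun i j => Iff.rfl
  have hpos : 0 < Fintype.card κ := Fintype.card_pos
  obtain ⟨n, hn⟩ : ∃ n, Fintype.card κ = n + 1 := ⟨Fintype.card κ - 1, by omega⟩
  let e : Fin (n + 1) ≃o κ := Fintype.orderIsoFinOfCardEq κ hn
  let ρ : Equiv.Perm κ := e.symm.toEquiv.trans ((finRotate (n + 1)).trans e.toEquiv)
  refine ⟨ρ, ?_⟩
  have hρ : ∀ k : Fin (n + 1), ρ (e k) = e (finRotate (n + 1) k) := by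
    intro k
    simp [ρ]
  have h1 : ∑ i, f i (ρ i) = ∑ k : Fin (n + 1), f (e k) (e (finRotate (n + 1) k)) := by
    rw [← Equiv.sum_comp e.toEquiv]
    apply Finset.sum_congr rfl
    intro k _
    simp only [RelIso.coe_fn_toEquiv]
    rw [hρ]
  rw [h1, Fin.sum_univ_castSucc]
  set b : Fin (n + 1) → ℕ := fun k => a (e k) with hb
  have hbmono : Monotone b := by
    intro x y hxy
    rcases eq_or_lt_of_le hxy with rfl | hlt'
    · exact le_rfl
    · exact ((hlt _ _).mp (e.strictMono hlt')).le
  have h2 : ∀ k : Fin n, f (e k.castSucc) (e (finRotate (n + 1) k.castSucc))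
      ≤ b k.succ - b k.castSucc := by
    intro k
    rw [finRotate_apply, Fin.coeSucc_eq_succ]
    have := hstep _ _ ((hlt _ _).mp (e.strictMono (Fin.castSucc_lt_succ (i := k))))
    have hb1 : b k.succ = a (e k.succ) := rfl
    have hb2 : b k.castSucc = a (e k.castSucc) := rfl
    omega
  have h3 := Finset.sum_le_sum (fun k (_ : k ∈ (Finset.univ : Finset (Fin n))) => h2 k)
  have h4 := sum_fin_telescope n b hbmono
  have h5 : f (e (Fin.last n)) (e (finRotate (n + 1) (Fin.last n))) + b (Fin.last n)
      ≤ Q + b 0 := by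
    rw [finRotate_last]
    exact hclose (e 0) (e (Fin.last n)) (hbmono (Fin.zero_le _))
  omega

/-- Two factors of a sequence: the arc cost is at most the difference of their phases. -/
lemma arcCost_le_of_phases {X Y : List α} {F : ℕ → α} {A B : ℕ}
    (hX : ∀ i (hi : i < X.length), X[i] = F (A + i))
    (hY : ∀ i (hi : i < Y.length), Y[i] = F (B + i))
    (hAB : A < B) (hno : B - A + Y.length ≤ X.length → False) :
    arcCost X Y + A ≤ B := by
  unfold arcCost
  by_cases hlen : X.length ≤ B - A
  · omega
  have hlen := not_le.mp hlen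
  have hY' : X.length - (B - A) < Y.length := by
    by_contra hcon
    exact hno (by omega)
  have hle : X.length - (B - A) ≤ ov X Y := by
    apply le_ov (by omega) hY'
    apply List.ext_getElem
    · simp only [List.length_drop, List.length_take]
      omega
    · intro i h1 h2
      simp only [List.length_drop] at h1
      simp only [List.getElem_drop, List.getElem_take]
      have e : X.length - (X.length - (B - A)) = B - A := by omega
      have h3 : X.length - (X.length - (B - A)) + i < X.length := by omega
      have h4 : i < Y.length := by simp only [List.length_take] at h2; omega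
      rw [hX _ h3, hY _ h4]
      congr 1
      omega
  omega

omit [DecidableEq α] in
/-- Two factors of a sequence: a later string ending earlier is contained in the first one. -/
lemma infix_of_phases {X Y : List α} {F : ℕ → α} {A B : ℕ}
    (hX : ∀ i (hi : i < X.length), X[i] = F (A + i))
    (hY : ∀ i (hi : i < Y.length), Y[i] = F (B + i))
    (hAB : A ≤ B) (hin : B - A + Y.length ≤ X.length) : Y <:+: X := by
  have h2 : (X.drop (B - A)).take Y.length = Y := by
    apply List.ext_getElem
    · simp only [List.length_take, List.length_drop]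
      omega
    · intro i h3 h4
      simp only [List.getElem_take, List.getElem_drop]
      rw [hX _ (by omega), hY i h4]
      congr 1
      omega
  rw [← h2]
  exact (List.take_prefix _ _).isInfix.trans (List.drop_suffix _ _).isInfix

omit [DecidableEq α] in
lemma periodic_add_mul {F : ℕ → α} {q : ℕ} (hper : ∀ k, F (k + q) = F k) (m k : ℕ) :
    F (k + m * q) = F k := by
  induction m with
  | zero => simp
  | succ m ih => rw [show k + (m + 1) * q = (k + m * q) + q by ring, hper, ih]

/-- Relinking: a union of cycles of an optimal cover whose strings are factors of one `q`-periodic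
sequence costs at most `q`. -/
theorem relink [Fintype ι] (s : ι → List α) (hfree : ∀ i j, s i <:+: s j → i = j)
    (σ : Equiv.Perm ι) (hσ : IsOptimalCover s σ) (J : Finset ι)
    (hJ : ∀ i, σ i ∈ J ↔ i ∈ J) (hJne : J.Nonempty) (F : ℕ → α) (q : ℕ) (hq : 0 < q)
    (hper : ∀ k, F (k + q) = F k)
    (hψ : ∀ j ∈ J, ∃ a, ∀ i (hi : i < (s j).length), (s j)[i] = F (a + i)) :
    ∑ j ∈ J, arcCost (s j) (s (σ j)) ≤ q := by
  classical
  have hψ' : ∀ x : {j // j ∈ J}, ∃ a, ∀ i (hi : i < (s x.1).length), (s x.1)[i] = F (a + i) :=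
    fun x => hψ x.1 x.2
  choose ψ hψ'' using hψ'
  -- phases reduced modulo q
  set r : {j // j ∈ J} → ℕ := fun x => ψ x % q with hr
  have hrlt : ∀ x, r x < q := fun x => Nat.mod_lt _ hq
  have hrs : ∀ x i (hi : i < (s x.1).length), (s x.1)[i] = F (r x + i) := by
    intro x i hi
    rw [hψ'' x i hi]
    have h1 : ψ x = ψ x % q + q * (ψ x / q) := (Nat.mod_add_div _ _).symm
    have h2 : ψ x + i = (r x + i) + (ψ x / q) * q := by
      simp only [hr]
      nlinarith [h1]
    rw [h2, periodic_add_mul hper]
  have hprefix : ∀ x y : {j // j ∈ J}, r x = r y → (s x.1).length ≤ (s y.1).length → x = y := by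
    intro x y hxy hle
    have h1 : s x.1 <+: s y.1 := by
      rw [List.prefix_iff_getElem]
      refine ⟨hle, ?_⟩
      intro i hi
      rw [hrs x i hi, hrs y i (by omega), hxy]
    have := hfree _ _ h1.isInfix
    exact Subtype.ext this
  have hinj : Function.Injective r := by
    intro x y hxy
    rcases le_total (s x.1).length (s y.1).length with hle | hle
    · exact hprefix x y hxy hle
    · exact (hprefix y x hxy.symm hle).symm
  have hne_J : Nonempty {j // j ∈ J} := by
    obtain ⟨j, hj⟩ := hJne
    exact ⟨⟨j, hj⟩⟩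
  have hcost : ∃ ρ : Equiv.Perm {j // j ∈ J},
      ∑ x, arcCost (s x.1) (s (ρ x).1) ≤ q := by
    apply exists_perm_cost_le r hinj (fun x y => arcCost (s x.1) (s y.1)) q
    · intro x y hxy
      have hxne : x ≠ y := by rintro rfl; omega
      apply arcCost_le_of_phases (F := F) (hrs x) (hrs y) hxy
      intro hcon
      -- `s y` lies inside `s x`
      apply hxne
      exact (Subtype.ext (hfree _ _ (infix_of_phases (hrs x) (hrs y) hxy.le hcon))).symm
    · intro x y hxy
      have hlt2 : r y < r x + q := by have := hrlt y; omega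
      have hY : ∀ i (hi : i < (s x.1).length), (s x.1)[i] = F (r x + q + i) := by
        intro i hi
        rw [hrs x i hi, show r x + q + i = (r x + i) + q by ring, hper]
      have := arcCost_le_of_phases (F := F) (hrs y) hY hlt2 (by
        intro hcon
        -- `s x` lies inside `s y` at a nonzero offset
        have h1 : s x.1 <:+: s y.1 := infix_of_phases (hrs y) hY hlt2.le hcon
        have hxy' : x = y := Subtype.ext (hfree _ _ h1)
        rw [hxy'] at hcon
        have := hrlt y
        omega)
      omega
  obtain ⟨ρ, hρ⟩ := hcost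
  -- the permutation of all indices
  let en : Equiv.Perm {i // ¬ i ∈ J} := σ.subtypePerm (fun x => by
    constructor
    · intro hx hx'; exact hx ((hJ x).mpr hx')
    · intro hx hx'; exact hx ((hJ x).mp hx'))
  let τ : Equiv.Perm ι := Equiv.Perm.subtypeCongr ρ en
  have hτ1 : ∀ x : {j // j ∈ J}, τ x.1 = (ρ x).1 := by
    intro x
    exact Equiv.Perm.subtypeCongr.left_apply_subtype ρ en x
  have hτ2 : ∀ i, i ∉ J → τ i = σ i := by
    intro i hi
    have := Equiv.Perm.subtypeCongr.right_apply_subtype ρ en ⟨i, hi⟩
    exact this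
  have hopt := hσ τ
  unfold coverCost at hopt
  rw [← Finset.sum_add_sum_compl J, ← Finset.sum_add_sum_compl J (fun i => arcCost (s i) (s (τ i)))]
    at hopt
  have hout : ∑ i ∈ Jᶜ, arcCost (s i) (s (τ i)) = ∑ i ∈ Jᶜ, arcCost (s i) (s (σ i)) := by
    apply Finset.sum_congr rfl
    intro i hi
    rw [hτ2 i (Finset.mem_compl.mp hi)]
  have hin : ∑ i ∈ J, arcCost (s i) (s (τ i)) = ∑ x : {j // j ∈ J}, arcCost (s x.1) (s (ρ x).1) := by
    rw [← Finset.sum_coe_sort J]
    apply Finset.sum_congr rfl
    intro x _
    rw [hτ1 x]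
  omega

end Vale.Agent.Lib.P333
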