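import Vale.Agent.Lib.P333.Relink
import Vale.Agent.Lib.P333.Rauzy

/-!
The periodic sequence of a cycle of a cover, and its consequences for an optimal cover (P333).
-/

namespace Vale.Agent.Lib.P333

open Finset

variable {α : Type*} [DecidableEq α] {ι : Type*}

section word

variable (s : ι → List α) (σ : Equiv.Perm ι) (h : ι)

lemma walkCost_succ (j : ℕ) : walkCost s σ h (j + 1) =
    walkCost s σ h j + arcCost (s (σ^[j] h)) (s (σ^[j + 1] h)) := by
  unfold walkCost
  rw [Finset.sum_range_succ]

lemma walkCost_zero : walkCost s σ h 0 = 0 := by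
  simp [walkCost]

lemma walkCost_mono : Monotone (walkCost s σ h) :=
  monotone_nat_of_le_succ (fun j => by rw [walkCost_succ]; omega)

lemma le_walkCost (hne : ∀ i, s i ≠ []) (j : ℕ) : j ≤ walkCost s σ h j := by
  induction j with
  | zero => simp
  | succ j ih =>
    rw [walkCost_succ]
    have := arcCost_pos (hne (σ^[j] h)) (hne (σ^[j + 1] h))
    omega

/-- The segment containing position `k` of the walk. -/
def segIndex (k : ℕ) : ℕ := Nat.findGreatest (fun j => walkCost s σ h j ≤ k) k

lemma segIndex_spec (hne : ∀ i, s i ≠ []) (k : ℕ) :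
    walkCost s σ h (segIndex s σ h k) ≤ k ∧ k < walkCost s σ h (segIndex s σ h k + 1) := by
  constructor
  · unfold segIndex
    exact Nat.findGreatest_spec (P := fun j => walkCost s σ h j ≤ k) (m := 0) (Nat.zero_le _)
      (by simp [walkCost_zero])
  · by_contra hcon
    have hcon := not_lt.mp hcon
    have h1 := le_walkCost s σ h hne (segIndex s σ h k + 1)
    have h2 : segIndex s σ h k + 1 ≤ segIndex s σ h k :=
      Nat.le_findGreatest (P := fun j => walkCost s σ h j ≤ k) (by omega) hcon
    omega

lemma segIndex_eq (hne : ∀ i, s i ≠ []) {k j : ℕ} (h1 : walkCost s σ h j ≤ k)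
    (h2 : k < walkCost s σ h (j + 1)) : segIndex s σ h k = j := by
  obtain ⟨h3, h4⟩ := segIndex_spec s σ h hne k
  have hmono := walkCost_mono s σ h
  rcases lt_trichotomy (segIndex s σ h k) j with hlt | heq | hgt
  · have := hmono (show segIndex s σ h k + 1 ≤ j by omega)
    omega
  · exact heq
  · have := hmono (show j + 1 ≤ segIndex s σ h k by omega)
    omega

/-- The sequence spelled by the walk starting at `h`, `d` being a default letter. -/
def wordAt (d : α) (k : ℕ) : α :=
  (s (σ^[segIndex s σ h k] h)).getD (k - walkCost s σ h (segIndex s σ h k)) d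

lemma wordAt_spec (hne : ∀ i, s i ≠ []) (d : α) :
    ∀ (i j : ℕ) (hi : i < (s (σ^[j] h)).length),
      (s (σ^[j] h))[i] = wordAt s σ h d (walkCost s σ h j + i) := by
  intro i
  induction i using Nat.strong_induction_on with
  | _ i ih =>
    intro j hi
    have hadd := arcCost_add_ov (hne (σ^[j] h)) (hne (σ^[j + 1] h))
    have hpos := arcCost_pos (hne (σ^[j] h)) (hne (σ^[j + 1] h))
    by_cases hseg : i < arcCost (s (σ^[j] h)) (s (σ^[j + 1] h))
    · have hidx : segIndex s σ h (walkCost s σ h j + i) = j := by
        apply segIndex_eq s σ h hne (by omega)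
        rw [walkCost_succ]; omega
      unfold wordAt
      rw [hidx, Nat.add_sub_cancel_left, List.getD_eq_getElem _ _ hi]
    · have hseg := not_lt.mp hseg
      set g := arcCost (s (σ^[j] h)) (s (σ^[j + 1] h)) with hg
      set m := ov (s (σ^[j] h)) (s (σ^[j + 1] h)) with hm
      have hm1 : m < (s (σ^[j + 1] h)).length := ov_lt_right _ (hne _) (hne _)
      have hi' : i - g < (s (σ^[j + 1] h)).length := by omega
      have hih := ih (i - g) (by omega) (j + 1) hi'
      rw [walkCost_succ, ← hg, show walkCost s σ h j + g + (i - g) = walkCost s σ h j + i by omega]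
        at hih
      rw [← hih]
      -- the overlap identifies the letters
      have hspec := ov_spec (s (σ^[j] h)) (s (σ^[j + 1] h))
      rw [← hm] at hspec
      have hlen : (s (σ^[j] h)).length - m = g := by omega
      rw [hlen] at hspec
      have hlt1 : i - g < ((s (σ^[j] h)).drop g).length := by
        simp only [List.length_drop]; omega
      have hlt2 : i - g < ((s (σ^[j + 1] h)).take m).length := by
        simp only [List.length_take]; omega
      have e1 : ((s (σ^[j] h)).drop g)[i - g]'hlt1 = ((s (σ^[j + 1] h)).take m)[i - g]'hlt2 := by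
        simp only [hspec]
      simp only [List.getElem_drop, List.getElem_take] at e1
      rw [← e1]
      congr 1
      omega

lemma iterate_add_period [Finite ι] (j : ℕ) :
    σ^[j + Function.minimalPeriod σ h] h = σ^[j] h := by
  rw [Function.iterate_add_apply, Function.iterate_minimalPeriod]

lemma walkCost_add_period [Finite ι] (j : ℕ) :
    walkCost s σ h (j + Function.minimalPeriod σ h) = walkCost s σ h j + cycleCost s σ h := by
  induction j with
  | zero => simp [walkCost_zero, cycleCost]
  | succ j ih =>
    rw [show j + 1 + Function.minimalPeriod σ h = (j + Function.minimalPeriod σ h) + 1 by ring,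
      walkCost_succ, ih, walkCost_succ, iterate_add_period,
      show (j + Function.minimalPeriod σ h) + 1 = (j + 1) + Function.minimalPeriod σ h by ring,
      iterate_add_period]
    ring

lemma wordAt_periodic [Finite ι] (hne : ∀ i, s i ≠ []) (d : α) (k : ℕ) :
    wordAt s σ h d (k + cycleCost s σ h) = wordAt s σ h d k := by
  obtain ⟨h1, h2⟩ := segIndex_spec s σ h hne k
  generalize segIndex s σ h k = j at h1 h2
  rw [walkCost_succ] at h2
  have hadd := arcCost_add_ov (hne (σ^[j] h)) (hne (σ^[j + 1] h))
  obtain ⟨i, rfl⟩ : ∃ i, k = walkCost s σ h j + i := ⟨k - walkCost s σ h j, by omega⟩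
  have hi : i < (s (σ^[j] h)).length := by omega
  rw [← wordAt_spec s σ h hne d i j hi]
  have hi' : i < (s (σ^[j + Function.minimalPeriod σ h] h)).length := by
    rw [iterate_add_period]; exact hi
  have := wordAt_spec s σ h hne d i (j + Function.minimalPeriod σ h) hi'
  rw [walkCost_add_period] at this
  rw [show walkCost s σ h j + i + cycleCost s σ h = walkCost s σ h j + cycleCost s σ h + i by ring,
    ← this]
  simp only [iterate_add_period]

lemma cycleCost_pos [Finite ι] (hne : ∀ i, s i ≠ []) : 0 < cycleCost s σ h := by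
  have h1 := minimalPeriod_pos σ h
  have h2 := le_walkCost s σ h hne (Function.minimalPeriod σ h)
  unfold cycleCost
  omega

/-- Every window of length `t + 1` of the sequence lies in a string of the walk, if all arcs of the
walk have overlap at least `t`. -/
lemma win_infix (hne : ∀ i, s i ≠ []) (d : α) (t : ℕ)
    (ht : ∀ n : ℕ, t ≤ ov (s (σ^[n] h)) (s (σ^[n + 1] h))) (a : ℕ) :
    ∃ j, win (wordAt s σ h d) a (t + 1) <:+: s (σ^[j] h) := by
  obtain ⟨h1, h2⟩ := segIndex_spec s σ h hne a
  generalize segIndex s σ h a = j at h1 h2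
  rw [walkCost_succ] at h2
  have hadd := arcCost_add_ov (hne (σ^[j] h)) (hne (σ^[j + 1] h))
  have hov := ht j
  obtain ⟨i, rfl⟩ : ∃ i, a = walkCost s σ h j + i := ⟨a - walkCost s σ h j, by omega⟩
  refine ⟨j, ?_⟩
  have hle : i + (t + 1) ≤ (s (σ^[j] h)).length := by omega
  have e : win (wordAt s σ h d) (walkCost s σ h j + i) (t + 1)
      = ((s (σ^[j] h)).drop i).take (t + 1) := by
    apply List.ext_getElem
    · simp only [win_length, List.length_take, List.length_drop]
      omega
    · intro m h3 h4
      simp only [win_length] at h3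
      simp only [win_getElem, List.getElem_take, List.getElem_drop]
      rw [wordAt_spec s σ h hne d (i + m) j (by omega)]
      congr 1
      omega
  rw [e]
  exact (List.take_prefix _ _).isInfix.trans (List.drop_suffix _ _).isInfix

end word

section cycle

variable [Fintype ι]

/-- The indices in the cycle of `h`. -/
noncomputable def orbitSet (σ : Equiv.Perm ι) (h : ι) : Finset ι := by
  classical exact Finset.univ.filter (fun i => σ.SameCycle h i)

omit [DecidableEq α] in
lemma mem_orbitSet {σ : Equiv.Perm ι} {h i : ι} : i ∈ orbitSet σ h ↔ σ.SameCycle h i := by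
  classical
  simp [orbitSet]

omit [DecidableEq α] in
lemma orbitSet_invariant (σ : Equiv.Perm ι) (h i : ι) : σ i ∈ orbitSet σ h ↔ i ∈ orbitSet σ h := by
  simp only [mem_orbitSet]
  exact Equiv.Perm.sameCycle_apply_right

omit [DecidableEq α] in
lemma self_mem_orbitSet (σ : Equiv.Perm ι) (h : ι) : h ∈ orbitSet σ h :=
  mem_orbitSet.mpr (Equiv.Perm.SameCycle.refl _ _)

lemma sum_orbitSet (s : ι → List α) (σ : Equiv.Perm ι) (h : ι) :
    ∑ i ∈ orbitSet σ h, arcCost (s i) (s (σ i)) = cycleCost s σ h := by
  classical
  unfold cycleCost walkCost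
  symm
  refine Finset.sum_bij (fun j _ => σ^[j] h) ?_ ?_ ?_ ?_
  · intro j _
    exact mem_orbitSet.mpr (sameCycle_iterate σ h j)
  · intro j hj j' hj' heq
    exact Function.iterate_injOn_Iio_minimalPeriod
      (Set.mem_Iio.mpr (Finset.mem_range.mp hj)) (Set.mem_Iio.mpr (Finset.mem_range.mp hj')) heq
  · intro i hi
    obtain ⟨k, hk⟩ := (mem_orbitSet.mp hi).exists_nat_pow_eq
    refine ⟨k % Function.minimalPeriod σ h,
      Finset.mem_range.mpr (Nat.mod_lt _ (minimalPeriod_pos σ h)), ?_⟩
    rw [Function.iterate_mod_minimalPeriod_eq, Equiv.Perm.iterate_eq_pow]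
    exact hk
  · intro j _
    rw [Function.iterate_succ_apply']

omit [DecidableEq α] in
lemma exists_iterate_of_mem {σ : Equiv.Perm ι} {h i : ι} (hi : i ∈ orbitSet σ h) :
    ∃ k, i = σ^[k] h := by
  obtain ⟨k, hk⟩ := (mem_orbitSet.mp hi).exists_nat_pow_eq
  exact ⟨k, by rw [Equiv.Perm.iterate_eq_pow]; exact hk.symm⟩

/-- The sequence of a cycle of an optimal cover has minimal period the cost of the cycle. -/
lemma cycleCost_le_period (s : ι → List α) (hne : ∀ i, s i ≠ [])
    (hfree : ∀ i j, s i <:+: s j → i = j) (σ : Equiv.Perm ι) (hσ : IsOptimalCover s σ) (h : ι)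
    (d : α) (q : ℕ) (hq : 0 < q) (hper : ∀ i, wordAt s σ h d (i + q) = wordAt s σ h d i) :
    cycleCost s σ h ≤ q := by
  rw [← sum_orbitSet]
  apply relink s hfree σ hσ (orbitSet σ h) (orbitSet_invariant σ h) ⟨h, self_mem_orbitSet σ h⟩
    (wordAt s σ h d) q hq hper
  intro j hj
  obtain ⟨k, rfl⟩ := exists_iterate_of_mem hj
  exact ⟨walkCost s σ h k, fun i hi => wordAt_spec s σ h hne d i k hi⟩

/-- Sequences of different cycles of an optimal cover are not shifts of each other. -/
lemma not_shift (s : ι → List α) (hne : ∀ i, s i ≠ [])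
    (hfree : ∀ i j, s i <:+: s j → i = j) (σ : Equiv.Perm ι) (hσ : IsOptimalCover s σ) {h h' : ι}
    (hdisj : ¬ σ.SameCycle h h') (d : α) (a b : ℕ)
    (hshift : ∀ i, wordAt s σ h d (a + i) = wordAt s σ h' d (b + i)) : False := by
  classical
  have hp := cycleCost_pos s σ h hne
  have hp' := cycleCost_pos s σ h' hne
  have hdis : Disjoint (orbitSet σ h) (orbitSet σ h') := by
    rw [Finset.disjoint_left]
    intro i hi hi'
    exact hdisj ((mem_orbitSet.mp hi).trans (mem_orbitSet.mp hi').symm)
  have hsum : ∑ i ∈ orbitSet σ h ∪ orbitSet σ h', arcCost (s i) (s (σ i))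
      = cycleCost s σ h + cycleCost s σ h' := by
    rw [Finset.sum_union hdis, sum_orbitSet, sum_orbitSet]
  have hle : ∑ i ∈ orbitSet σ h ∪ orbitSet σ h', arcCost (s i) (s (σ i)) ≤ cycleCost s σ h := by
    apply relink s hfree σ hσ _ _ ⟨h, Finset.mem_union_left _ (self_mem_orbitSet σ h)⟩
      (wordAt s σ h d) _ hp (wordAt_periodic s σ h hne d)
    · intro j hj
      rcases Finset.mem_union.mp hj with hj | hj
      · obtain ⟨k, rfl⟩ := exists_iterate_of_mem hj
        exact ⟨walkCost s σ h k, fun i hi => wordAt_spec s σ h hne d i k hi⟩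
      · obtain ⟨k, rfl⟩ := exists_iterate_of_mem hj
        refine ⟨a + (walkCost s σ h' k + b * cycleCost s σ h' - b), fun i hi => ?_⟩
        rw [wordAt_spec s σ h' hne d i k hi]
        have hb : b ≤ b * cycleCost s σ h' := Nat.le_mul_of_pos_right b hp'
        have e1 := periodic_add_mul (wordAt_periodic s σ h' hne d) b (walkCost s σ h' k + i)
        rw [← e1]
        have e2 := hshift (walkCost s σ h' k + b * cycleCost s σ h' - b + i)
        rw [show a + (walkCost s σ h' k + b * cycleCost s σ h' - b + i)
          = a + (walkCost s σ h' k + b * cycleCost s σ h' - b) + i by ring] at e2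
        rw [e2]
        congr 1
        omega
    · intro i
      simp only [Finset.mem_union, orbitSet_invariant]
  omega

/-- **Key inequality for an optimal cycle cover.** -/
theorem cover_core (s : ι → List α) (hne : ∀ i, s i ≠ [])
    (hfree : ∀ i j, s i <:+: s j → i = j) (σ : Equiv.Perm ι) (hσ : IsOptimalCover s σ)
    (H : Finset ι) (hH : IsWeakestHeadSet s σ H) (W : List α) (hW : ∀ i, s i <:+: W) :
    ∑ h ∈ H, (closeOv s σ h + 2 - cycleCost s σ h) ≤ W.length := by
  classical
  rcases isEmpty_or_nonempty ι with hemp | ⟨⟨i0⟩⟩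
  · have : H = ∅ := Finset.eq_empty_of_isEmpty H
    simp [this]
  obtain ⟨d, -⟩ : ∃ d, d ∈ s i0 := List.exists_mem_of_ne_nil _ (hne i0)
  have key := rauzy_count W H (fun h => wordAt s σ h d) (fun h => cycleCost s σ h)
    (fun h => closeOv s σ h + 1)
    (fun h _ => cycleCost_pos s σ h hne)
    (fun h _ i => wordAt_periodic s σ h hne d i)
    (fun h _ q hq hlt hper => by
      have := cycleCost_le_period s hne hfree σ hσ h d q hq hper
      omega)
    (fun h hh h' hh' hdiff a b hshift => by
      have hdisj : ¬ σ.SameCycle h h' := by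
        intro hsame
        obtain ⟨h0, -, huniq⟩ := hH.1 h'
        exact hdiff ((huniq h ⟨hh, hsame⟩).trans (huniq h' ⟨hh', Equiv.Perm.SameCycle.refl _ _⟩).symm)
      exact not_shift s hne hfree σ hσ hdisj d a b hshift)
    (fun h hh a => by
      obtain ⟨j, hj⟩ := win_infix s σ h hne d (closeOv s σ h) (hH.2 h hh) a
      exact mem_facs.mpr ⟨by simp, hj.trans (hW _)⟩)
  simpa [add_assoc] using key

end cycle

end Vale.Agent.Lib.P333
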